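import Vale.Agent.H22.GoldenThompson
import Vale.Agent.H1.LT2.Defs

/-!
Row K.
-/

open MeasureTheory Matrix Set
open scoped ENNReal ComplexOrder

namespace Vale.LT2

open Vale.H22.GT

variable {N : ℕ}

lemma fn_posSemidef {A : Mat N} (hA : A.IsHermitian) (d : Fin N → ℝ) (hd : ∀ i, 0 ≤ d i) :
    (fn hA (fun i => (d i : ℂ))).PosSemidef := by
  unfold fn
  refine Matrix.PosSemidef.mul_mul_conjTranspose_same (Matrix.PosSemidef.diagonal ?_) _
  intro i
  simp only [Pi.zero_apply]
  exact_mod_cast hd i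

lemma fn_posDef {A : Mat N} (hA : A.IsHermitian) (d : Fin N → ℝ) (hd : ∀ i, 0 < d i) :
    (fn hA (fun i => (d i : ℂ))).PosDef := by
  unfold fn
  refine Matrix.PosDef.mul_mul_conjTranspose_same (Matrix.PosDef.diagonal ?_) ?_
  · intro i
    exact_mod_cast hd i
  · intro x y hxy
    have h1 : ∀ z, (z ᵥ* (hA.eigenvectorUnitary : Mat N)) ᵥ*
        (hA.eigenvectorUnitary : Mat N)ᴴ = z := by
      intro z
      rw [Matrix.vecMul_vecMul, U_mul_star, Matrix.vecMul_one]
    rw [← h1 x, ← h1 y]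
    exact congrArg (fun w => w ᵥ* (hA.eigenvectorUnitary : Mat N)ᴴ) hxy

lemma Kl_eq_fn (K : Mat N) (hK : K.IsHermitian) (l : ℝ) :
    Kl K l = fn hK (fun i => ((√((hK.eigenvalues i) ^ 2 + l) : ℝ) : ℂ)) := by
  unfold Kl
  rw [fn_cfc hK]

lemma fn_sub {A : Mat N} (hA : A.IsHermitian) (d e : Fin N → ℂ) :
    fn hA (fun i => d i - e i) = fn hA d - fn hA e := by
  have h := fn_add hA (fun i => d i - e i) e
  simp only [sub_add_cancel] at h
  rw [h, add_sub_cancel_right]

lemma fn_smul {A : Mat N} (hA : A.IsHermitian) (c : ℂ) (e : Fin N → ℂ) :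
    fn hA (fun i => c * e i) = c • fn hA e := by
  unfold fn
  have : diagonal (fun i => c * e i) = c • diagonal e := by
    rw [← Matrix.diagonal_smul]; rfl
  rw [this, Matrix.mul_smul, Matrix.smul_mul]

lemma fn_const {A : Mat N} (hA : A.IsHermitian) (c : ℂ) :
    fn hA (fun _ => c) = c • (1 : Mat N) := by
  have h := fn_smul hA c (fun _ => 1)
  simp only [mul_one] at h
  rw [h, fn_one]

lemma Kl_sub_posDef (K : Mat N) (hK : K.PosDef) (l : ℝ) (hl : 0 < l) : (Kl K l - K).PosDef := by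
  have h : Kl K l - K = fn hK.isHermitian
      (fun i => ((√((hK.isHermitian.eigenvalues i) ^ 2 + l) - hK.isHermitian.eigenvalues i : ℝ)
        : ℂ)) := by
    have e : (fun i => ((√((hK.isHermitian.eigenvalues i) ^ 2 + l) -
        hK.isHermitian.eigenvalues i : ℝ) : ℂ)) = fun i =>
        ((√((hK.isHermitian.eigenvalues i) ^ 2 + l) : ℝ) : ℂ) -
          (hK.isHermitian.eigenvalues i : ℂ) := by
      funext i
      push_cast
      rfl
    rw [e, fn_sub, fn_eig, Kl_eq_fn K hK.isHermitian]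
  rw [h]
  refine fn_posDef _ _ fun i => ?_
  have h0 := hK.eigenvalues_pos i
  rw [sub_pos]
  exact Real.lt_sqrt_of_sq_lt (by linarith)

theorem Kl_posDef (K M : Mat N) (hK : K.PosDef) (hM : Between K M) (l : ℝ) (hl : 0 < l) :
    (Kl K l + M).PosDef ∧ (Kl K l - M).PosDef := by
  have h := Kl_sub_posDef K hK l hl
  constructor
  · have : Kl K l + M = (Kl K l - K) + (K + M) := by abel
    rw [this]
    exact h.add_posSemidef hM.lower
  · have : Kl K l - M = (Kl K l - K) + (K - M) := by abel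
    rw [this]
    exact h.add_posSemidef hM.upper

theorem Kl_sq (K : Mat N) (hK : K.PosDef) (l : ℝ) (hl : 0 ≤ l) :
    Kl K l * Kl K l = K * K + (l : ℂ) • 1 := by
  rw [Kl_eq_fn K hK.isHermitian, fn_mul]
  have h1 : K * K = fn hK.isHermitian (fun i => (hK.isHermitian.eigenvalues i : ℂ) *
      (hK.isHermitian.eigenvalues i : ℂ)) := by
    rw [← fn_mul, fn_eig]
  rw [h1, ← fn_const hK.isHermitian, ← fn_add]
  congr 1
  funext i
  have h2 : 0 ≤ (hK.isHermitian.eigenvalues i) ^ 2 + l := by positivity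
  have h3 : √((hK.isHermitian.eigenvalues i) ^ 2 + l) * √((hK.isHermitian.eigenvalues i) ^ 2 + l)
      = (hK.isHermitian.eigenvalues i) * (hK.isHermitian.eigenvalues i) + l := by
    rw [Real.mul_self_sqrt h2]; ring
  exact_mod_cast h3

end Vale.LT2
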