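import Vale.Agent.H22.LT2K
import Vale.Agent.H1.LT2.FBase

/-!
Row A: asymptotics of `L_l - log l`.
-/

open MeasureTheory Matrix Set
open scoped ENNReal ComplexOrder

namespace Vale.LT2

open Vale.H22.GT

variable {N : ℕ}

/-- sum of the absolute values of the entries -/
noncomputable def cX (X : Mat N) : ℝ := ∑ i, ∑ j, ‖X j i‖

lemma cX_nonneg (X : Mat N) : 0 ≤ cX X :=
  Finset.sum_nonneg fun _ _ => Finset.sum_nonneg fun _ _ => norm_nonneg _

lemma fn_entry_le {A : Mat N} (hA : A.IsHermitian) (d : Fin N → ℝ) (i j : Fin N) :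
    ‖fn hA (fun i => (d i : ℂ)) i j‖ ≤ ∑ k, |d k| := by
  unfold fn
  rw [Matrix.mul_apply]
  refine (norm_sum_le _ _).trans (Finset.sum_le_sum fun k _ => ?_)
  rw [Matrix.mul_diagonal, norm_mul, norm_mul, Complex.norm_real, Real.norm_eq_abs,
    conjTranspose_apply, norm_star]
  have h1 : ‖(hA.eigenvectorUnitary : Mat N) i k‖ ≤ 1 :=
    entry_norm_bound_of_unitary hA.eigenvectorUnitary.2 i k
  have h2 : ‖(hA.eigenvectorUnitary : Mat N) j k‖ ≤ 1 :=
    entry_norm_bound_of_unitary hA.eigenvectorUnitary.2 j k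
  calc ‖(hA.eigenvectorUnitary : Mat N) i k‖ * |d k| * ‖(hA.eigenvectorUnitary : Mat N) j k‖
      ≤ 1 * |d k| * 1 := by gcongr
    _ = |d k| := by ring

lemma abs_tp_fn_le {A : Mat N} (hA : A.IsHermitian) (d : Fin N → ℝ) (X : Mat N) :
    |tp (fn hA (fun i => (d i : ℂ))) X| ≤ (∑ k, |d k|) * cX X := by
  unfold tp cX
  refine (Complex.abs_re_le_norm _).trans ?_
  rw [Matrix.trace, Finset.mul_sum]
  refine (norm_sum_le _ _).trans (Finset.sum_le_sum fun i _ => ?_)
  rw [diag_apply, Matrix.mul_apply, Finset.mul_sum]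
  refine (norm_sum_le _ _).trans (Finset.sum_le_sum fun j _ => ?_)
  rw [norm_mul]
  exact mul_le_mul_of_nonneg_right (fn_entry_le hA d i j) (norm_nonneg _)

lemma tpA_add_left (A B X : Mat N) : tp (A + B) X = tp A X + tp B X := by
  unfold tp
  rw [Matrix.add_mul, Matrix.trace_add, Complex.add_re]

lemma tpA_sub_left (A B X : Mat N) : tp (A - B) X = tp A X - tp B X := by
  unfold tp
  rw [Matrix.sub_mul, Matrix.trace_sub, Complex.sub_re]

lemma nonneg_of_fn_posSemidef {A : Mat N} (hA : A.IsHermitian) (d : Fin N → ℝ)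
    (h : (fn hA (fun i => (d i : ℂ))).PosSemidef) : ∀ i, 0 ≤ d i := by
  have h1 := h.conjTranspose_mul_mul_same (hA.eigenvectorUnitary : Mat N)
  have h2 : (hA.eigenvectorUnitary : Mat N)ᴴ * fn hA (fun i => (d i : ℂ)) *
      (hA.eigenvectorUnitary : Mat N) = diagonal (fun i => (d i : ℂ)) := by
    unfold fn
    simp only [Matrix.mul_assoc]
    rw [U_star_mul, Matrix.mul_one, ← Matrix.mul_assoc, U_star_mul, Matrix.one_mul]
  rw [h2, posSemidef_diagonal_iff] at h1
  intro i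
  exact_mod_cast h1 i

lemma le_eig {P : Mat N} (hP : P.IsHermitian) (a : ℝ) (h : (P - (a : ℂ) • 1).PosSemidef) :
    ∀ i, a ≤ hP.eigenvalues i := by
  have h1 : P - (a : ℂ) • 1 = fn hP (fun i => ((hP.eigenvalues i - a : ℝ) : ℂ)) := by
    have e : (fun i => ((hP.eigenvalues i - a : ℝ) : ℂ)) =
        fun i => (hP.eigenvalues i : ℂ) - (a : ℂ) := by
      funext i; push_cast; rfl
    rw [e, fn_sub hP (fun i => (hP.eigenvalues i : ℂ)) (fun _ => (a : ℂ)), fn_eig, fn_const]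
  rw [h1] at h
  intro i
  have := nonneg_of_fn_posSemidef hP _ h i
  linarith

lemma eig_le {P : Mat N} (hP : P.IsHermitian) (a : ℝ) (h : ((a : ℂ) • 1 - P).PosSemidef) :
    ∀ i, hP.eigenvalues i ≤ a := by
  have h1 : (a : ℂ) • 1 - P = fn hP (fun i => ((a - hP.eigenvalues i : ℝ) : ℂ)) := by
    have e : (fun i => ((a - hP.eigenvalues i : ℝ) : ℂ)) =
        fun i => (a : ℂ) - (hP.eigenvalues i : ℂ) := by
      funext i; push_cast; rfl
    rw [e, fn_sub hP (fun _ => (a : ℂ)) (fun i => (hP.eigenvalues i : ℂ)), fn_eig, fn_const]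
  rw [h1] at h
  intro i
  have := nonneg_of_fn_posSemidef hP _ h i
  linarith

lemma Between.neg {K M : Mat N} (h : Between K M) : Between K (-M) where
  herm := h.herm.neg
  lower := by simpa [sub_eq_add_neg] using h.upper
  upper := by simpa using h.lower

/-- an upper bound for the eigenvalues -/
noncomputable def TT {K : Mat N} (hK : K.PosDef) : ℝ := 1 + ∑ i, hK.isHermitian.eigenvalues i

lemma TT_posA {K : Mat N} (hK : K.PosDef) : 1 ≤ TT hK := by
  unfold TT
  have : 0 ≤ ∑ i, hK.isHermitian.eigenvalues i :=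
    Finset.sum_nonneg fun i _ => (hK.eigenvalues_pos i).le
  linarith

lemma eig_le_TT {K : Mat N} (hK : K.PosDef) (i : Fin N) :
    hK.isHermitian.eigenvalues i ≤ TT hK := by
  unfold TT
  have := Finset.single_le_sum (f := fun i => hK.isHermitian.eigenvalues i)
    (fun i _ => (hK.eigenvalues_pos i).le) (Finset.mem_univ i)
  linarith

lemma TT_sub_posSemidef {K : Mat N} (hK : K.PosDef) :
    (((TT hK : ℝ) : ℂ) • (1 : Mat N) - K).PosSemidef := by
  have h1 : ((TT hK : ℝ) : ℂ) • 1 - K = fn hK.isHermitian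
      (fun i => ((TT hK - hK.isHermitian.eigenvalues i : ℝ) : ℂ)) := by
    have e : (fun i => ((TT hK - hK.isHermitian.eigenvalues i : ℝ) : ℂ)) =
        fun i => ((TT hK : ℝ) : ℂ) - (hK.isHermitian.eigenvalues i : ℂ) := by
      funext i; push_cast; rfl
    rw [e, fn_sub hK.isHermitian (fun _ => ((TT hK : ℝ) : ℂ))
      (fun i => (hK.isHermitian.eigenvalues i : ℂ)), fn_eig, fn_const]
  rw [h1]
  exact fn_posSemidef _ _ fun i => sub_nonneg.mpr (eig_le_TT hK i)

lemma Kl_lower {K : Mat N} (hK : K.PosDef) (l : ℝ) (_hl : 0 < l) :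
    (Kl K l - ((√l : ℝ) : ℂ) • (1 : Mat N)).PosSemidef := by
  have h1 : Kl K l - ((√l : ℝ) : ℂ) • (1 : Mat N) = fn hK.isHermitian
      (fun i => ((√((hK.isHermitian.eigenvalues i) ^ 2 + l) - √l : ℝ) : ℂ)) := by
    have e : (fun i => ((√((hK.isHermitian.eigenvalues i) ^ 2 + l) - √l : ℝ) : ℂ)) =
        fun i => ((√((hK.isHermitian.eigenvalues i) ^ 2 + l) : ℝ) : ℂ) - ((√l : ℝ) : ℂ) := by
      funext i; push_cast; rfl
    rw [e, fn_sub hK.isHermitian (fun i => ((√((hK.isHermitian.eigenvalues i) ^ 2 + l) : ℝ) : ℂ))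
      (fun _ => ((√l : ℝ) : ℂ)), fn_const, Kl_eq_fn]
  rw [h1]
  refine fn_posSemidef _ _ fun i => sub_nonneg.mpr (Real.sqrt_le_sqrt ?_)
  nlinarith [sq_nonneg (hK.isHermitian.eigenvalues i)]

lemma Kl_upper {K : Mat N} (hK : K.PosDef) (l : ℝ) (hl : 0 < l) :
    (((√l + TT hK : ℝ) : ℂ) • (1 : Mat N) - Kl K l).PosSemidef := by
  have h1 : ((√l + TT hK : ℝ) : ℂ) • (1 : Mat N) - Kl K l = fn hK.isHermitian
      (fun i => (((√l + TT hK) - √((hK.isHermitian.eigenvalues i) ^ 2 + l) : ℝ) : ℂ)) := by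
    have e : (fun i => (((√l + TT hK) - √((hK.isHermitian.eigenvalues i) ^ 2 + l) : ℝ) : ℂ)) =
        fun i => ((√l + TT hK : ℝ) : ℂ) -
          ((√((hK.isHermitian.eigenvalues i) ^ 2 + l) : ℝ) : ℂ) := by
      funext i; push_cast; rfl
    rw [e, fn_sub hK.isHermitian (fun _ => ((√l + TT hK : ℝ) : ℂ))
      (fun i => ((√((hK.isHermitian.eigenvalues i) ^ 2 + l) : ℝ) : ℂ)), fn_const, Kl_eq_fn]
  rw [h1]
  refine fn_posSemidef _ _ fun i => sub_nonneg.mpr ?_
  have hk := (hK.eigenvalues_pos i)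
  have hkT := eig_le_TT hK i
  have hT1 := TT_posA hK
  rw [Real.sqrt_le_left (by linarith [Real.sqrt_nonneg l])]
  have h2 := Real.sq_sqrt hl.le
  have h3 := Real.sqrt_nonneg l
  nlinarith

lemma scalar_lower (k T l : ℝ) (hk : 0 < k) (hkT : k ≤ T) (hl : 0 < l) :
    l / (√l + 2 * T) ≤ √(k ^ 2 + l) - k := by
  have hT : 0 < T := lt_of_lt_of_le hk hkT
  have h2 := Real.sq_sqrt hl.le
  have h3 := Real.sqrt_nonneg l
  have h4 : √(k ^ 2 + l) ≤ √l + T := by
    rw [Real.sqrt_le_left (by positivity)]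
    nlinarith
  have h5 : 0 ≤ k ^ 2 + l := by positivity
  have h6 := Real.sq_sqrt h5
  have h7 : k ≤ √(k ^ 2 + l) := Real.le_sqrt_of_sq_le (by linarith)
  rw [div_le_iff₀ (by positivity)]
  nlinarith

lemma Kl_sub_lower {K : Mat N} (hK : K.PosDef) (l : ℝ) (hl : 0 < l) :
    (Kl K l - K - ((l / (√l + 2 * TT hK) : ℝ) : ℂ) • (1 : Mat N)).PosSemidef := by
  have h1 : Kl K l - K - ((l / (√l + 2 * TT hK) : ℝ) : ℂ) • (1 : Mat N) = fn hK.isHermitian
      (fun i => ((√((hK.isHermitian.eigenvalues i) ^ 2 + l) - hK.isHermitian.eigenvalues i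
        - l / (√l + 2 * TT hK) : ℝ) : ℂ)) := by
    have e : (fun i => ((√((hK.isHermitian.eigenvalues i) ^ 2 + l) - hK.isHermitian.eigenvalues i
        - l / (√l + 2 * TT hK) : ℝ) : ℂ)) =
        fun i => (((√((hK.isHermitian.eigenvalues i) ^ 2 + l) : ℝ) : ℂ) -
          (hK.isHermitian.eigenvalues i : ℂ)) - ((l / (√l + 2 * TT hK) : ℝ) : ℂ) := by
      funext i; push_cast; rfl
    rw [e, fn_sub hK.isHermitian (fun i => (((√((hK.isHermitian.eigenvalues i) ^ 2 + l) : ℝ) : ℂ) -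
          (hK.isHermitian.eigenvalues i : ℂ))) (fun _ => ((l / (√l + 2 * TT hK) : ℝ) : ℂ)),
      fn_sub hK.isHermitian (fun i => ((√((hK.isHermitian.eigenvalues i) ^ 2 + l) : ℝ) : ℂ))
        (fun i => (hK.isHermitian.eigenvalues i : ℂ)), fn_eig, fn_const, Kl_eq_fn]
  rw [h1]
  refine fn_posSemidef _ _ fun i => sub_nonneg.mpr ?_
  exact scalar_lower _ _ _ (hK.eigenvalues_pos i) (eig_le_TT hK i) hl

lemma P_eig {K M : Mat N} (hK : K.PosDef) (hM : Between K M) (l : ℝ) (hl : 0 < l)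
    (hP : (Kl K l + M).IsHermitian) (i : Fin N) :
    √l - TT hK ≤ hP.eigenvalues i ∧ hP.eigenvalues i ≤ √l + 2 * TT hK ∧
      l / (√l + 2 * TT hK) ≤ hP.eigenvalues i := by
  refine ⟨le_eig hP _ ?_ i, eig_le hP _ ?_ i, le_eig hP _ ?_ i⟩
  · have : Kl K l + M - ((√l - TT hK : ℝ) : ℂ) • (1 : Mat N) =
        (Kl K l - ((√l : ℝ) : ℂ) • (1 : Mat N)) + (((TT hK : ℝ) : ℂ) • (1 : Mat N) - K)
          + (K + M) := by
      push_cast
      rw [sub_smul]
      abel
    rw [this]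
    exact ((Kl_lower hK l hl).add (TT_sub_posSemidef hK)).add hM.lower
  · have : ((√l + 2 * TT hK : ℝ) : ℂ) • (1 : Mat N) - (Kl K l + M) =
        (((√l + TT hK : ℝ) : ℂ) • (1 : Mat N) - Kl K l) +
          (((TT hK : ℝ) : ℂ) • (1 : Mat N) - K) + (K - M) := by
      push_cast
      rw [two_mul, add_smul, add_smul, add_smul]
      abel
    rw [this]
    exact ((Kl_upper hK l hl).add (TT_sub_posSemidef hK)).add hM.upper
  · have : Kl K l + M - ((l / (√l + 2 * TT hK) : ℝ) : ℂ) • (1 : Mat N) =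
        (Kl K l - K - ((l / (√l + 2 * TT hK) : ℝ) : ℂ) • (1 : Mat N)) + (K + M) := by
      abel
    rw [this]
    exact (Kl_sub_lower hK l hl).add hM.lower

lemma abs_log_eig_le {K M : Mat N} (hK : K.PosDef) (hM : Between K M) (l : ℝ) (hl : 0 < l)
    (hP : (Kl K l + M).IsHermitian) (i : Fin N) :
    |Real.log (hP.eigenvalues i)| ≤ |Real.log l| + (√l + 2 * TT hK) := by
  obtain ⟨-, h2, h3⟩ := P_eig hK hM l hl hP i
  have hT := TT_posA hK
  have hs := Real.sqrt_nonneg l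
  have hden : 0 < √l + 2 * TT hK := by linarith
  have hpos : 0 < l / (√l + 2 * TT hK) := div_pos hl hden
  have hp : 0 < hP.eigenvalues i := lt_of_lt_of_le hpos h3
  have hlogden : Real.log (√l + 2 * TT hK) ≤ √l + 2 * TT hK :=
    (Real.log_le_sub_one_of_pos hden).trans (by linarith)
  rw [abs_le]
  constructor
  · have h4 := Real.log_le_log hpos h3
    rw [Real.log_div hl.ne' hden.ne'] at h4
    have := neg_abs_le (Real.log l)
    linarith
  · have h4 := Real.log_le_log hp h2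
    have := abs_nonneg (Real.log l)
    linarith

lemma log_fnA {P : Mat N} (hP : P.IsHermitian) :
    cfc Real.log P = fn hP (fun i => (Real.log (hP.eigenvalues i) : ℂ)) := fn_cfc hP _

/-- the crude bound -/
lemma Dl_crude {K M : Mat N} (hK : K.PosDef) (hM : Between K M) (X : Mat N) (l : ℝ)
    (hl : 0 < l) :
    |tp (Dl K M l) X| ≤ (3 * |Real.log l| + 2 * (√l + 2 * TT hK)) * N * cX X := by
  have hP := (Kl_posDef K M hK hM l hl).1.isHermitian
  have hM' := hM.neg
  have hQ : (Kl K l + (-M)).IsHermitian := (Kl_posDef K (-M) hK hM' l hl).1.isHermitian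
  have hQe : Kl K l - M = Kl K l + (-M) := sub_eq_add_neg _ _
  unfold Dl Ll
  rw [hQe, tpA_sub_left, tpA_add_left]
  rw [log_fnA hP, log_fnA hQ]
  have h1 := abs_tp_fn_le hP (fun i => Real.log (hP.eigenvalues i)) X
  have h2 := abs_tp_fn_le hQ (fun i => Real.log (hQ.eigenvalues i)) X
  have h3 : |tp (((Real.log l : ℝ) : ℂ) • (1 : Mat N)) X| ≤ (∑ _k : Fin N, |Real.log l|) * cX X := by
    rw [← fn_const hP]
    exact abs_tp_fn_le hP (fun _ => Real.log l) X
  have e1 : ∑ k, |Real.log (hP.eigenvalues k)| ≤ N * (|Real.log l| + (√l + 2 * TT hK)) := by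
    calc _ ≤ ∑ _k : Fin N, (|Real.log l| + (√l + 2 * TT hK)) :=
          Finset.sum_le_sum fun k _ => abs_log_eig_le hK hM l hl hP k
      _ = _ := by rw [Finset.sum_const, Finset.card_univ, Fintype.card_fin, nsmul_eq_mul]
  have e2 : ∑ k, |Real.log (hQ.eigenvalues k)| ≤ N * (|Real.log l| + (√l + 2 * TT hK)) := by
    calc _ ≤ ∑ _k : Fin N, (|Real.log l| + (√l + 2 * TT hK)) :=
          Finset.sum_le_sum fun k _ => abs_log_eig_le hK hM' l hl hQ k
      _ = _ := by rw [Finset.sum_const, Finset.card_univ, Fintype.card_fin, nsmul_eq_mul]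
  have e3 : ∑ _k : Fin N, |Real.log l| = N * |Real.log l| := by simp
  have hX := cX_nonneg X
  have f1 := mul_le_mul_of_nonneg_right e1 hX
  have f2 := mul_le_mul_of_nonneg_right e2 hX
  rw [e3] at h3
  have g1 := abs_sub (tp (fn hP fun i => (Real.log (hP.eigenvalues i) : ℂ)) X +
    tp (fn hQ fun i => (Real.log (hQ.eigenvalues i) : ℂ)) X)
    (tp (((Real.log l : ℝ) : ℂ) • (1 : Mat N)) X)
  have g2 := abs_add_le (tp (fn hP fun i => (Real.log (hP.eigenvalues i) : ℂ)) X)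
    (tp (fn hQ fun i => (Real.log (hQ.eigenvalues i) : ℂ)) X)
  nlinarith

theorem Dl_small (K M : Mat N) (hK : K.PosDef) (hM : Between K M) (X : Mat N) :
    ∃ C : ℝ, ∀ l ∈ Ioc (0 : ℝ) 1, |tp (Dl K M l) X| ≤ C * (1 + |Real.log l|) := by
  refine ⟨(3 + 2 * (1 + 2 * TT hK)) * N * cX X, fun l hl => ?_⟩
  refine (Dl_crude hK hM X l hl.1).trans ?_
  have h1 : √l ≤ 1 := by
    rw [Real.sqrt_le_left (by norm_num)]
    linarith [hl.2]
  have h2 := TT_posA hK
  have h3 := abs_nonneg (Real.log l)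
  have h4 : 3 * |Real.log l| + 2 * (√l + 2 * TT hK) ≤
      (3 + 2 * (1 + 2 * TT hK)) * (1 + |Real.log l|) := by nlinarith
  have h5 : 0 ≤ (N : ℝ) * cX X := mul_nonneg (Nat.cast_nonneg _) (cX_nonneg X)
  have := mul_le_mul_of_nonneg_right h4 h5
  nlinarith

/-- log bound, order two -/
lemma log_two (y : ℝ) (hy : |y| ≤ 1 / 2) : |Real.log (1 + y) - y| ≤ 2 * y ^ 2 := by
  have h := Real.abs_log_sub_add_sum_range_le (x := -y) (by rw [abs_neg]; linarith) 1
  simp only [Finset.sum_range_one, zero_add, pow_one, abs_neg] at h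
  have e : -y / ((0 : ℕ) + 1 : ℝ) + Real.log (1 - -y) = Real.log (1 + y) - y := by
    push_cast; rw [sub_neg_eq_add]; ring
  rw [e] at h
  refine h.trans ?_
  rw [div_le_iff₀ (by linarith), sq_abs]
  nlinarith [sq_nonneg y]

/-- log bound, order four -/
lemma log_four (y : ℝ) (hy : |y| ≤ 1 / 2) :
    y - y ^ 2 / 2 + y ^ 3 / 3 - 2 * y ^ 4 ≤ Real.log (1 + y) := by
  have h := Real.abs_log_sub_add_sum_range_le (x := -y) (by rw [abs_neg]; linarith) 3
  simp only [Finset.sum_range_succ, Finset.sum_range_zero, zero_add, pow_one, abs_neg] at h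
  have h2 : |y| ^ (3 + 1) / (1 - |y|) ≤ 2 * y ^ 4 := by
    have e4 : |y| ^ (3 + 1) = y ^ 4 := by
      exact Even.pow_abs (by decide) y
    rw [e4, div_le_iff₀ (by linarith)]
    have : 0 ≤ y ^ 4 := by positivity
    nlinarith
  have h3 := (abs_le.mp (h.trans h2)).1
  norm_num at h3
  have e5 : (-y) ^ 3 = -y ^ 3 := by ring
  rw [e5] at h3
  linarith

lemma fn_real_add {A : Mat N} (hA : A.IsHermitian) (d e : Fin N → ℝ) :
    fn hA (fun i => ((d i + e i : ℝ) : ℂ)) =
      fn hA (fun i => (d i : ℂ)) + fn hA (fun i => (e i : ℂ)) := by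
  rw [← fn_add]
  congr 1
  funext i
  push_cast
  rfl

/-- `y`-matrix -/
lemma fn_y {P : Mat N} (hP : P.IsHermitian) (s : ℝ) :
    fn hP (fun i => ((hP.eigenvalues i / s - 1 : ℝ) : ℂ)) = ((1 / s : ℝ) : ℂ) • P - 1 := by
  have e : (fun i => ((hP.eigenvalues i / s - 1 : ℝ) : ℂ)) =
      fun i => ((1 / s : ℝ) : ℂ) * (hP.eigenvalues i : ℂ) - 1 := by
    funext i; push_cast; ring
  rw [e, fn_sub hP (fun i => ((1 / s : ℝ) : ℂ) * (hP.eigenvalues i : ℂ)) (fun _ => 1),
    fn_smul, fn_eig, fn_one]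

lemma y_bound {K M : Mat N} (hK : K.PosDef) (hM : Between K M) (l : ℝ)
    (hl : 16 * TT hK ^ 2 ≤ l) (hP : (Kl K l + M).IsHermitian) (i : Fin N) :
    0 < hP.eigenvalues i ∧ |hP.eigenvalues i / √l - 1| ≤ 2 * TT hK / √l ∧
      2 * TT hK / √l ≤ 1 / 2 := by
  have hT := TT_posA hK
  have hl0 : 0 < l := lt_of_lt_of_le (by positivity) hl
  have hs : 0 < √l := Real.sqrt_pos.mpr hl0
  have hs4 : 4 * TT hK ≤ √l := by
    apply Real.le_sqrt_of_sq_le
    nlinarith
  obtain ⟨h1, h2, -⟩ := P_eig hK hM l hl0 hP i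
  refine ⟨by linarith, ?_, ?_⟩
  · have e : hP.eigenvalues i / √l - 1 = (hP.eigenvalues i - √l) / √l := by
      field_simp
    rw [e, abs_div, abs_of_pos hs]
    refine div_le_div_of_nonneg_right ?_ hs.le
    rw [abs_le]
    constructor <;> linarith
  · rw [div_le_iff₀ hs]
    linarith

/-- eigenvalues of `K_l / √l - 1` -/
noncomputable def aa {K : Mat N} (hK : K.PosDef) (l : ℝ) (i : Fin N) : ℝ :=
  √((hK.isHermitian.eigenvalues i) ^ 2 + l) / √l - 1

lemma aa_facts {K : Mat N} (hK : K.PosDef) (l : ℝ) (hl : 0 < l) (i : Fin N) :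
    0 ≤ aa hK l i ∧ aa hK l i ≤ (hK.isHermitian.eigenvalues i) ^ 2 / (2 * l) ∧
      2 * aa hK l i + aa hK l i ^ 2 = (hK.isHermitian.eigenvalues i) ^ 2 / l := by
  set k := hK.isHermitian.eigenvalues i with hk
  have hs : 0 < √l := Real.sqrt_pos.mpr hl
  have hsq := Real.sq_sqrt hl.le
  have h1 : √l ≤ √(k ^ 2 + l) := Real.sqrt_le_sqrt (by nlinarith [sq_nonneg k])
  have h2 : √(k ^ 2 + l) ^ 2 = k ^ 2 + l := Real.sq_sqrt (by positivity)
  have h0 : 0 ≤ aa hK l i := by
    unfold aa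
    rw [← hk, sub_nonneg, le_div_iff₀ hs, one_mul]
    exact h1
  have h3 : (aa hK l i + 1) * √l = √(k ^ 2 + l) := by
    unfold aa
    rw [← hk, sub_add_cancel, div_mul_cancel₀ _ hs.ne']
  have h4 : (aa hK l i + 1) ^ 2 * l = k ^ 2 + l := by
    rw [← h2, ← h3, mul_pow, hsq]
  have h5 : 2 * aa hK l i + aa hK l i ^ 2 = k ^ 2 / l := by
    rw [eq_div_iff hl.ne']
    linarith
  refine ⟨h0, ?_, h5⟩
  have h6 : k ^ 2 / (2 * l) = (k ^ 2 / l) / 2 := by
    field_simp
  rw [h6, ← h5]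
  nlinarith [sq_nonneg (aa hK l i)]

lemma fn_aa {K : Mat N} (hK : K.PosDef) (l : ℝ) :
    fn hK.isHermitian (fun i => (aa hK l i : ℂ)) = ((1 / √l : ℝ) : ℂ) • Kl K l - 1 := by
  have e : (fun i => (aa hK l i : ℂ)) =
      fun i => ((1 / √l : ℝ) : ℂ) * ((√((hK.isHermitian.eigenvalues i) ^ 2 + l) : ℝ) : ℂ) - 1 := by
    funext i; unfold aa; push_cast; ring
  rw [e, fn_sub hK.isHermitian (fun i => ((1 / √l : ℝ) : ℂ) *
    ((√((hK.isHermitian.eigenvalues i) ^ 2 + l) : ℝ) : ℂ)) (fun _ => 1),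
    fn_smul, ← Kl_eq_fn, fn_one]

/-- the remainder of the logarithm -/
noncomputable def rr {P : Mat N} (hP : P.IsHermitian) (s : ℝ) (i : Fin N) : ℝ :=
  Real.log (1 + (hP.eigenvalues i / s - 1)) - (hP.eigenvalues i / s - 1)

lemma log_decomp {P : Mat N} (hP : P.IsHermitian) (l : ℝ) (hl : 0 < l)
    (hpos : ∀ i, 0 < hP.eigenvalues i) :
    cfc Real.log P = fn hP (fun i => (rr hP √l i : ℂ)) + (((1 / √l : ℝ) : ℂ) • P - 1) +
      (((Real.log l / 2 : ℝ)) : ℂ) • (1 : Mat N) := by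
  have hs : 0 < √l := Real.sqrt_pos.mpr hl
  rw [← fn_y hP √l, ← fn_const hP, ← fn_add, ← fn_add, log_fnA hP]
  congr 1
  funext i
  have : Real.log (hP.eigenvalues i) = rr hP √l i + (hP.eigenvalues i / √l - 1) +
      Real.log l / 2 := by
    unfold rr
    rw [add_sub_cancel, Real.log_div (hpos i).ne' hs.ne', Real.log_sqrt hl.le]
    ring
  rw [this]
  push_cast
  rfl

lemma Dl_decomp {K M : Mat N} (hK : K.PosDef) (l : ℝ) (hl : 0 < l)
    (hP : (Kl K l + M).IsHermitian) (hQ : (Kl K l + (-M)).IsHermitian)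
    (hPp : ∀ i, 0 < hP.eigenvalues i) (hQp : ∀ i, 0 < hQ.eigenvalues i) :
    Dl K M l = fn hP (fun i => (rr hP √l i : ℂ)) + fn hQ (fun i => (rr hQ √l i : ℂ)) +
      fn hK.isHermitian (fun i => ((2 * aa hK l i : ℝ) : ℂ)) := by
  have hQe : Kl K l - M = Kl K l + (-M) := sub_eq_add_neg _ _
  have e2 : fn hK.isHermitian (fun i => ((2 * aa hK l i : ℝ) : ℂ)) =
      (2 : ℂ) • (((1 / √l : ℝ) : ℂ) • Kl K l - 1) := by
    rw [← fn_aa, ← fn_smul]
    congr 1
    funext i
    push_cast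
    rfl
  unfold Dl Ll
  rw [hQe, log_decomp hP l hl hPp, log_decomp hQ l hl hQp, e2]
  have e3 : ((Real.log l : ℝ) : ℂ) • (1 : Mat N) = (((Real.log l / 2 : ℝ)) : ℂ) • (1 : Mat N) +
      (((Real.log l / 2 : ℝ)) : ℂ) • (1 : Mat N) := by
    rw [← add_smul]
    congr 1
    push_cast
    ring
  rw [e3, smul_add, smul_add, smul_neg, smul_sub, two_smul ℂ (((1 / √l : ℝ) : ℂ) • Kl K l),
    two_smul ℂ (1 : Mat N)]
  abel

lemma rr_abs_le {K M : Mat N} (hK : K.PosDef) (hM : Between K M) (l : ℝ)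
    (hl : 16 * TT hK ^ 2 ≤ l) (hP : (Kl K l + M).IsHermitian) (i : Fin N) :
    |rr hP √l i| ≤ 8 * TT hK ^ 2 / l := by
  have hT := TT_posA hK
  have hl0 : 0 < l := lt_of_lt_of_le (by positivity) hl
  obtain ⟨-, h1, h2⟩ := y_bound hK hM l hl hP i
  have h3 := log_two _ (h1.trans h2)
  unfold rr
  refine h3.trans ?_
  have h4 : (hP.eigenvalues i / √l - 1) ^ 2 ≤ (2 * TT hK / √l) ^ 2 := by
    rw [← sq_abs (hP.eigenvalues i / √l - 1)]
    exact pow_le_pow_left₀ (abs_nonneg _) h1 2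
  have h5 : (2 * TT hK / √l) ^ 2 = 4 * TT hK ^ 2 / l := by
    rw [div_pow, Real.sq_sqrt hl0.le]
    ring
  rw [h5] at h4
  have h6 : 8 * TT hK ^ 2 / l = 2 * (4 * TT hK ^ 2 / l) := by ring
  rw [h6]
  linarith

lemma sum_const_bound (f : Fin N → ℝ) (c : ℝ) (h : ∀ i, |f i| ≤ c) : ∑ i, |f i| ≤ N * c := by
  calc _ ≤ ∑ _i : Fin N, c := Finset.sum_le_sum fun i _ => h i
    _ = _ := by rw [Finset.sum_const, Finset.card_univ, Fintype.card_fin, nsmul_eq_mul]

lemma Dl_large_aux {K M : Mat N} (hK : K.PosDef) (hM : Between K M) (X : Mat N) (l : ℝ)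
    (hl : 16 * TT hK ^ 2 ≤ l) :
    |tp (Dl K M l) X| ≤ (17 * TT hK ^ 2 * N * cX X) / l := by
  have hT := TT_posA hK
  have hl0 : 0 < l := lt_of_lt_of_le (by positivity) hl
  have hP := (Kl_posDef K M hK hM l hl0).1.isHermitian
  have hM' := hM.neg
  have hQ : (Kl K l + (-M)).IsHermitian := (Kl_posDef K (-M) hK hM' l hl0).1.isHermitian
  rw [Dl_decomp hK l hl0 hP hQ (fun i => (y_bound hK hM l hl hP i).1)
    (fun i => (y_bound hK hM' l hl hQ i).1), tpA_add_left, tpA_add_left]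
  have h1 := abs_tp_fn_le hP (fun i => rr hP √l i) X
  have h2 := abs_tp_fn_le hQ (fun i => rr hQ √l i) X
  have h3 := abs_tp_fn_le hK.isHermitian (fun i => 2 * aa hK l i) X
  have e1 := sum_const_bound _ _ (fun i => rr_abs_le hK hM l hl hP i)
  have e2 := sum_const_bound _ _ (fun i => rr_abs_le hK hM' l hl hQ i)
  have e3 : ∑ i, |2 * aa hK l i| ≤ N * (TT hK ^ 2 / l) := by
    refine sum_const_bound _ _ fun i => ?_
    obtain ⟨g1, g2, -⟩ := aa_facts hK l hl0 i
    rw [abs_of_nonneg (by linarith)]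
    have g3 : (hK.isHermitian.eigenvalues i) ^ 2 / (2 * l) = (hK.isHermitian.eigenvalues i) ^ 2
      / l / 2 := by field_simp
    have g4 : (hK.isHermitian.eigenvalues i) ^ 2 / l ≤ TT hK ^ 2 / l := by
      refine div_le_div_of_nonneg_right ?_ hl0.le
      exact pow_le_pow_left₀ (hK.eigenvalues_pos i).le (eig_le_TT hK i) 2
    linarith
  have hX := cX_nonneg X
  have f1 := h1.trans (mul_le_mul_of_nonneg_right e1 hX)
  have f2 := h2.trans (mul_le_mul_of_nonneg_right e2 hX)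
  have f3 := h3.trans (mul_le_mul_of_nonneg_right e3 hX)
  have g1 := abs_add_le (tp (fn hP fun i => (rr hP √l i : ℂ)) X +
    tp (fn hQ fun i => (rr hQ √l i : ℂ)) X)
    (tp (fn hK.isHermitian (fun i => ((2 * aa hK l i : ℝ) : ℂ))) X)
  have g2 := abs_add_le (tp (fn hP fun i => (rr hP √l i : ℂ)) X)
    (tp (fn hQ fun i => (rr hQ √l i : ℂ)) X)
  have e : (17 * TT hK ^ 2 * N * cX X) / l = N * (8 * TT hK ^ 2 / l) * cX X +
      N * (8 * TT hK ^ 2 / l) * cX X + N * (TT hK ^ 2 / l) * cX X := by ring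
  rw [e]
  linarith

lemma Dl_mid {K M : Mat N} (hK : K.PosDef) (hM : Between K M) (X : Mat N) (l : ℝ)
    (hl1 : 1 ≤ l) (hl : l ≤ 16 * TT hK ^ 2) :
    |tp (Dl K M l) X| ≤ (100 * TT hK ^ 2) * N * cX X := by
  have hT := TT_posA hK
  refine (Dl_crude hK hM X l (by linarith)).trans ?_
  have h1 : |Real.log l| ≤ 16 * TT hK ^ 2 := by
    rw [abs_of_nonneg (Real.log_nonneg hl1)]
    have := Real.log_le_sub_one_of_pos (show (0:ℝ) < l by linarith)
    linarith
  have h2 : √l ≤ 4 * TT hK := by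
    rw [Real.sqrt_le_left (by linarith)]
    nlinarith
  have h3 : 3 * |Real.log l| + 2 * (√l + 2 * TT hK) ≤ 100 * TT hK ^ 2 := by nlinarith
  have h5 : 0 ≤ (N : ℝ) * cX X := mul_nonneg (Nat.cast_nonneg _) (cX_nonneg X)
  have := mul_le_mul_of_nonneg_right h3 h5
  nlinarith

theorem Dl_large (K M : Mat N) (hK : K.PosDef) (hM : Between K M) (X : Mat N) :
    ∃ C : ℝ, ∀ l ∈ Ici (1 : ℝ), |tp (Dl K M l) X| ≤ C / l := by
  have hT := TT_posA hK
  have hX : 0 ≤ (N : ℝ) * cX X := mul_nonneg (Nat.cast_nonneg _) (cX_nonneg X)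
  refine ⟨17 * TT hK ^ 2 * N * cX X + 16 * TT hK ^ 2 * ((100 * TT hK ^ 2) * N * cX X),
    fun l hl => ?_⟩
  have hl1 : (1:ℝ) ≤ l := hl
  have hl0 : 0 < l := by linarith
  rcases le_total (16 * TT hK ^ 2) l with h | h
  · refine (Dl_large_aux hK hM X l h).trans ?_
    refine div_le_div_of_nonneg_right ?_ hl0.le
    have : 0 ≤ 16 * TT hK ^ 2 * ((100 * TT hK ^ 2) * N * cX X) := by
      have h1 : 16 * TT hK ^ 2 * ((100 * TT hK ^ 2) * N * cX X) =
        (16 * TT hK ^ 2 * (100 * TT hK ^ 2)) * (N * cX X) := by ring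
      rw [h1]
      positivity
    linarith
  · refine (Dl_mid hK hM X l hl1 h).trans ?_
    rw [le_div_iff₀ hl0]
    have h1 : (100 * TT hK ^ 2) * N * cX X * l ≤
        16 * TT hK ^ 2 * ((100 * TT hK ^ 2) * N * cX X) := by
      have h2 : 0 ≤ (100 * TT hK ^ 2) * N * cX X := by
        rw [mul_assoc]; positivity
      nlinarith
    have h3 : 0 ≤ 17 * TT hK ^ 2 * N * cX X := by
      rw [mul_assoc (17 * TT hK ^ 2)]; positivity
    linarith

lemma tp_fn_one {A : Mat N} (hA : A.IsHermitian) (d : Fin N → ℝ) :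
    tp (fn hA (fun i => (d i : ℂ))) 1 = ∑ i, d i := by
  unfold tp
  rw [Matrix.mul_one, trace_fn, Complex.re_sum]
  rfl

lemma re_trace_fn {A : Mat N} (hA : A.IsHermitian) (d : Fin N → ℝ) :
    (fn hA (fun i => (d i : ℂ))).trace.re = ∑ i, d i := by
  rw [trace_fn, Complex.re_sum]
  rfl

/-- real powers of fn -/
lemma fn_mul_real {A : Mat N} (hA : A.IsHermitian) (d e : Fin N → ℝ) :
    fn hA (fun i => (d i : ℂ)) * fn hA (fun i => (e i : ℂ)) =
      fn hA (fun i => ((d i * e i : ℝ) : ℂ)) := by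
  rw [fn_mul]
  congr 1
  funext i
  push_cast
  rfl

lemma trace_cubic (A m : Mat N) :
    ((A + m) * (A + m) * (A + m)).trace + ((A - m) * (A - m) * (A - m)).trace =
      2 * (A * A * A).trace + 6 * (m * A * m).trace := by
  have h1 : (A + m) * (A + m) * (A + m) + (A - m) * (A - m) * (A - m) =
      A * A * A + A * A * A + (A * m * m + A * m * m) + (m * A * m + m * A * m) +
        (m * m * A + m * m * A) := by noncomm_ring
  rw [← Matrix.trace_add, h1]
  simp only [Matrix.trace_add]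
  have h2 : (A * m * m).trace = (m * A * m).trace := by
    rw [Matrix.mul_assoc, Matrix.trace_mul_comm, Matrix.mul_assoc, Matrix.trace_mul_comm]
  have h3 : (m * m * A).trace = (m * A * m).trace := by
    rw [Matrix.mul_assoc, Matrix.trace_mul_comm]
  rw [h2, h3]
  ring

lemma trace_quad (A m : Mat N) :
    ((A + m) * (A + m)).trace + ((A - m) * (A - m)).trace =
      2 * (A * A).trace + 2 * (m * m).trace := by
  have h1 : (A + m) * (A + m) + (A - m) * (A - m) =
      A * A + A * A + (m * m + m * m) := by noncomm_ring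
  rw [← Matrix.trace_add, h1]
  simp only [Matrix.trace_add]
  ring

lemma rr_lower {K M : Mat N} (hK : K.PosDef) (hM : Between K M) (l : ℝ)
    (hl : 16 * TT hK ^ 2 ≤ l) (hP : (Kl K l + M).IsHermitian) (i : Fin N) (w : ℝ)
    (hw : w = hP.eigenvalues i / √l - 1) :
    -(w * w) / 2 + (w * w * w) / 3 - 32 * TT hK ^ 4 / l ^ 2 ≤ rr hP √l i := by
  have hT := TT_posA hK
  have hl0 : 0 < l := lt_of_lt_of_le (by positivity) hl
  have hsq := Real.sq_sqrt hl0.le
  obtain ⟨-, h1, h2⟩ := y_bound hK hM l hl hP i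
  rw [← hw] at h1
  have h3 := log_four w (h1.trans h2)
  have h4 : w ^ 4 ≤ 16 * TT hK ^ 4 / l ^ 2 := by
    have h5 : |w| ^ 4 ≤ (2 * TT hK / √l) ^ 4 := pow_le_pow_left₀ (abs_nonneg _) h1 4
    have h6 : |w| ^ 4 = w ^ 4 := Even.pow_abs (by decide) _
    have h7 : (2 * TT hK / √l) ^ 4 = 16 * TT hK ^ 4 / l ^ 2 := by
      rw [div_pow]
      have : √l ^ 4 = l ^ 2 := by
        calc √l ^ 4 = (√l ^ 2) ^ 2 := by ring
          _ = l ^ 2 := by rw [hsq]
      rw [this]
      ring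
    rw [h6, h7] at h5
    exact h5
  unfold rr
  rw [← hw]
  have h8 : 32 * TT hK ^ 4 / l ^ 2 = 2 * (16 * TT hK ^ 4 / l ^ 2) := by ring
  rw [h8]
  have h9 : w * w = w ^ 2 := by ring
  have h10 : w * w * w = w ^ 3 := by ring
  rw [h10, h9]
  linarith

lemma rr_sum_lower {K M : Mat N} (hK : K.PosDef) (hM : Between K M) (l : ℝ)
    (hl : 16 * TT hK ^ 2 ≤ l) (hP : (Kl K l + M).IsHermitian) :
    -(∑ i, (hP.eigenvalues i / √l - 1) * (hP.eigenvalues i / √l - 1)) / 2 +
      (∑ i, (hP.eigenvalues i / √l - 1) * (hP.eigenvalues i / √l - 1) *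
        (hP.eigenvalues i / √l - 1)) / 3 - N * (32 * TT hK ^ 4 / l ^ 2) ≤
      ∑ i, rr hP √l i := by
  have r := Finset.sum_le_sum (s := Finset.univ)
    (fun i _ => rr_lower hK hM l hl hP i (hP.eigenvalues i / √l - 1) rfl)
  rw [Finset.sum_sub_distrib, Finset.sum_add_distrib, ← Finset.sum_div, ← Finset.sum_div,
      Finset.sum_neg_distrib, Finset.sum_const, Finset.card_univ, Fintype.card_fin,
      nsmul_eq_mul] at r
  exact r

lemma aa_sum_lower {K : Mat N} (hK : K.PosDef) (l : ℝ) (hl0 : 0 < l) :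
    (K * K).trace.re / l - N * (TT hK ^ 4 / l ^ 2) ≤
      ∑ i, 2 * aa hK l i - ∑ i, aa hK l i * aa hK l i := by
  have hKK : ∑ i, (hK.isHermitian.eigenvalues i) ^ 2 = (K * K).trace.re := by
    have : K * K = fn hK.isHermitian (fun i => ((hK.isHermitian.eigenvalues i *
        hK.isHermitian.eigenvalues i : ℝ) : ℂ)) := by
      rw [← fn_mul_real, fn_eig]
    conv_rhs => rw [this]
    rw [re_trace_fn]
    simp only [sq]
  have s4 : ∑ i, ((hK.isHermitian.eigenvalues i) ^ 2 / l - TT hK ^ 4 / l ^ 2) ≤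
      ∑ i, (2 * aa hK l i - aa hK l i * aa hK l i) := by
    refine Finset.sum_le_sum fun i _ => ?_
    obtain ⟨g1, g2, g0⟩ := aa_facts hK l hl0 i
    have g3 : (hK.isHermitian.eigenvalues i) ^ 2 / (2 * l) ≤ TT hK ^ 2 / (2 * l) := by
      refine div_le_div_of_nonneg_right ?_ (by linarith)
      exact pow_le_pow_left₀ (hK.eigenvalues_pos i).le (eig_le_TT hK i) 2
    have g4 : (aa hK l i) ^ 2 ≤ (TT hK ^ 2 / (2 * l)) ^ 2 :=
      pow_le_pow_left₀ g1 (g2.trans g3) 2
    have g5 : (TT hK ^ 2 / (2 * l)) ^ 2 = TT hK ^ 4 / l ^ 2 / 4 := by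
      rw [div_pow]; field_simp; ring
    rw [g5] at g4
    have g6 : 0 ≤ TT hK ^ 4 / l ^ 2 := by positivity
    rw [← g0]
    have g7 : aa hK l i * aa hK l i = aa hK l i ^ 2 := by ring
    rw [g7]
    linarith
  rw [Finset.sum_sub_distrib, Finset.sum_sub_distrib, ← Finset.sum_div, hKK, Finset.sum_const,
    Finset.card_univ, Fintype.card_fin, nsmul_eq_mul] at s4
  exact s4

lemma Dl_trace_aux {K M : Mat N} (hK : K.PosDef) (hM : Between K M) (l : ℝ)
    (hl : 16 * TT hK ^ 2 ≤ l) :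
    tp (K * K - M * M) 1 - (65 * N * TT hK ^ 4) / l ≤ l * tp (Dl K M l) 1 := by
  have hT := TT_posA hK
  have hl0 : 0 < l := lt_of_lt_of_le (by positivity) hl
  have hP := (Kl_posDef K M hK hM l hl0).1.isHermitian
  have hM' := hM.neg
  have hQ : (Kl K l + (-M)).IsHermitian := (Kl_posDef K (-M) hK hM' l hl0).1.isHermitian
  have hs : 0 < √l := Real.sqrt_pos.mpr hl0
  have hsq := Real.sq_sqrt hl0.le
  rw [Dl_decomp hK l hl0 hP hQ (fun i => (y_bound hK hM l hl hP i).1)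
    (fun i => (y_bound hK hM' l hl hQ i).1), tpA_add_left, tpA_add_left, tp_fn_one, tp_fn_one,
    tp_fn_one]
  set A : Mat N := ((1 / √l : ℝ) : ℂ) • Kl K l - 1 with hA
  set m : Mat N := ((1 / √l : ℝ) : ℂ) • M with hm
  set y : Fin N → ℝ := fun i => hP.eigenvalues i / √l - 1 with hy
  set z : Fin N → ℝ := fun i => hQ.eigenvalues i / √l - 1 with hz
  have hYP : fn hP (fun i => (y i : ℂ)) = A + m := by
    rw [hy, fn_y hP √l, hA, hm, smul_add]; abel
  have hYQ : fn hQ (fun i => (z i : ℂ)) = A - m := by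
    rw [hz, fn_y hQ √l, hA, hm, smul_add, smul_neg]; abel
  have hAf : fn hK.isHermitian (fun i => (aa hK l i : ℂ)) = A := fn_aa hK l
  have q1 : ∑ i, y i * y i = ((A + m) * (A + m)).trace.re := by
    rw [← hYP, fn_mul_real, re_trace_fn]
  have q2 : ∑ i, z i * z i = ((A - m) * (A - m)).trace.re := by
    rw [← hYQ, fn_mul_real, re_trace_fn]
  have q3 : ∑ i, aa hK l i * aa hK l i = (A * A).trace.re := by
    rw [← hAf, fn_mul_real, re_trace_fn]
  have c1 : ∑ i, y i * y i * y i = ((A + m) * (A + m) * (A + m)).trace.re := by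
    rw [← hYP, fn_mul_real, fn_mul_real, re_trace_fn]
  have c2 : ∑ i, z i * z i * z i = ((A - m) * (A - m) * (A - m)).trace.re := by
    rw [← hYQ, fn_mul_real, fn_mul_real, re_trace_fn]
  have c3 : ∑ i, aa hK l i * aa hK l i * aa hK l i = (A * A * A).trace.re := by
    rw [← hAf, fn_mul_real, fn_mul_real, re_trace_fn]
  have tq := congrArg Complex.re (trace_quad A m)
  have tc := congrArg Complex.re (trace_cubic A m)
  have e2 : ∀ w : ℂ, (2 * w).re = 2 * w.re := fun w => by simp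
  have e6 : ∀ w : ℂ, (6 * w).re = 6 * w.re := fun w => by simp
  rw [Complex.add_re, Complex.add_re, e2, e2, ← q1, ← q2, ← q3] at tq
  rw [Complex.add_re, Complex.add_re, e2, e6, ← c1, ← c2, ← c3] at tc
  have hmAm : 0 ≤ (m * A * m).trace.re := by
    have hApsd : A.PosSemidef := by
      rw [← hAf]
      exact fn_posSemidef _ _ fun i => (aa_facts hK l hl0 i).1
    have hmH : mᴴ = m := by
      rw [hm, conjTranspose_smul, hM.herm.eq]
      congr 1
      exact Complex.conj_ofReal _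
    have := (hApsd.conjTranspose_mul_mul_same m).trace_nonneg
    rw [hmH] at this
    exact (Complex.le_def.mp this).1
  have haaa : 0 ≤ ∑ i, aa hK l i * aa hK l i * aa hK l i :=
    Finset.sum_nonneg fun i _ => by
      have := (aa_facts hK l hl0 i).1
      positivity
  have hmm : l * (m * m).trace.re = (M * M).trace.re := by
    rw [hm, Matrix.smul_mul, Matrix.mul_smul, smul_smul, Matrix.trace_smul, smul_eq_mul,
      ← Complex.ofReal_mul, Complex.re_ofReal_mul, ← mul_assoc]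
    have : l * (1 / √l * (1 / √l)) = 1 := by
      field_simp
      exact hsq.symm
    rw [this, one_mul]
  have r1 : -(∑ i, y i * y i) / 2 + (∑ i, y i * y i * y i) / 3 - N * (32 * TT hK ^ 4 / l ^ 2) ≤
      ∑ i, rr hP √l i := rr_sum_lower hK hM l hl hP
  have r2 : -(∑ i, z i * z i) / 2 + (∑ i, z i * z i * z i) / 3 - N * (32 * TT hK ^ 4 / l ^ 2) ≤
      ∑ i, rr hQ √l i := rr_sum_lower hK hM' l hl hQ
  have s4 := aa_sum_lower hK l hl0
  have total : (K * K).trace.re / l - (m * m).trace.re - 65 * N * TT hK ^ 4 / l ^ 2 ≤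
      ∑ i, rr hP √l i + ∑ i, rr hQ √l i + ∑ i, 2 * aa hK l i := by
    have g7 : 65 * N * TT hK ^ 4 / l ^ 2 = N * (TT hK ^ 4 / l ^ 2) +
      2 * (N * (32 * TT hK ^ 4 / l ^ 2)) := by ring
    rw [g7]
    linarith
  have htp : tp (K * K - M * M) 1 = (K * K).trace.re - (M * M).trace.re := by
    unfold tp
    rw [Matrix.mul_one, Matrix.trace_sub, Complex.sub_re]
  rw [htp, ← hmm]
  have fin := mul_le_mul_of_nonneg_left total hl0.le
  have g8 : l * ((K * K).trace.re / l - (m * m).trace.re - 65 * N * TT hK ^ 4 / l ^ 2) =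
      (K * K).trace.re - l * (m * m).trace.re - 65 * N * TT hK ^ 4 / l := by
    field_simp
  rw [g8] at fin
  exact fin

theorem Dl_trace_large (K M : Mat N) (hK : K.PosDef) (hM : Between K M) :
    ∃ C : ℝ, ∀ l ∈ Ici (1 : ℝ), tp (K * K - M * M) 1 - C / l ≤ l * tp (Dl K M l) 1 := by
  have hT := TT_posA hK
  have hX : 0 ≤ (N : ℝ) * cX (1 : Mat N) := mul_nonneg (Nat.cast_nonneg _) (cX_nonneg _)
  set c2 : ℝ := (100 * TT hK ^ 2) * N * cX (1 : Mat N) with hc2
  have hc2n : 0 ≤ c2 := by rw [hc2, mul_assoc]; positivity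
  set E : ℝ := |tp (K * K - M * M) 1| with hE
  refine ⟨65 * N * TT hK ^ 4 + 16 * TT hK ^ 2 * (E + 16 * TT hK ^ 2 * c2), fun l hl => ?_⟩
  have hl1 : (1:ℝ) ≤ l := hl
  have hl0 : 0 < l := by linarith
  have hEn : 0 ≤ E := abs_nonneg _
  have hrest : 0 ≤ 16 * TT hK ^ 2 * (E + 16 * TT hK ^ 2 * c2) := by positivity
  rcases le_total (16 * TT hK ^ 2) l with h | h
  · refine le_trans ?_ (Dl_trace_aux hK hM l h)
    have := div_le_div_of_nonneg_right (show 65 * N * TT hK ^ 4 ≤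
      65 * N * TT hK ^ 4 + 16 * TT hK ^ 2 * (E + 16 * TT hK ^ 2 * c2) by linarith) hl0.le
    linarith
  · have h1 := Dl_mid hK hM 1 l hl1 h
    have h2 := (abs_le.mp h1).1
    have h3 : -(16 * TT hK ^ 2 * c2) ≤ l * tp (Dl K M l) 1 := by
      have h4 : l * (-c2) ≤ l * tp (Dl K M l) 1 := mul_le_mul_of_nonneg_left h2 hl0.le
      nlinarith
    have h5 : E + 16 * TT hK ^ 2 * c2 ≤
        (65 * N * TT hK ^ 4 + 16 * TT hK ^ 2 * (E + 16 * TT hK ^ 2 * c2)) / l := by
      rw [le_div_iff₀ hl0]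
      have h6 : (E + 16 * TT hK ^ 2 * c2) * l ≤ 16 * TT hK ^ 2 * (E + 16 * TT hK ^ 2 * c2) := by
        have : 0 ≤ E + 16 * TT hK ^ 2 * c2 := by positivity
        nlinarith
      have h7 : 0 ≤ 65 * (N:ℝ) * TT hK ^ 4 := by positivity
      linarith
    have h8 := le_abs_self (tp (K * K - M * M) 1)
    linarith

lemma continuous_KlA (K : Mat N) (hK : K.PosDef) : Continuous (fun l => Kl K l) := by
  have : (fun l => Kl K l) = fun l => (hK.isHermitian.eigenvectorUnitary : Mat N) *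
      diagonal (fun i => ((√((hK.isHermitian.eigenvalues i) ^ 2 + l) : ℝ) : ℂ)) *
      (hK.isHermitian.eigenvectorUnitary : Mat N)ᴴ := by
    funext l
    rw [Kl_eq_fn K hK.isHermitian]
    rfl
  rw [this]
  have h1 : Continuous (fun l : ℝ => (fun i : Fin N =>
      ((√((hK.isHermitian.eigenvalues i) ^ 2 + l) : ℝ) : ℂ))) := by
    refine continuous_pi fun i => ?_
    fun_prop
  exact (continuous_const.matrix_mul h1.matrix_diagonal).matrix_mul continuous_const

lemma continuous_tpA_left (X : Mat N) : Continuous (fun A : Mat N => tp A X) := by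
  unfold tp
  exact Complex.continuous_re.comp (Continuous.matrix_trace (continuous_id.matrix_mul
    continuous_const))

theorem continuousOn_tp_Dl (K M : Mat N) (hK : K.PosDef) (hM : Between K M) (X : Mat N) :
    ContinuousOn (fun l => tp (Dl K M l) X) (Ioi 0) := by
  have hlog : ContinuousOn Real.log (Ioi 0) := fun x hx =>
    (Real.continuousAt_log (ne_of_gt hx)).continuousWithinAt
  have hcfc := continuousOn_cfc_posDef (N := N) Real.log hlog
  have h1 : ContinuousOn (fun l => cfc Real.log (Kl K l + M)) (Ioi 0) := by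
    refine hcfc.comp ((continuous_KlA K hK).add continuous_const).continuousOn ?_
    intro l hl
    exact (Kl_posDef K M hK hM l hl).1
  have h2 : ContinuousOn (fun l => cfc Real.log (Kl K l - M)) (Ioi 0) := by
    refine hcfc.comp ((continuous_KlA K hK).sub continuous_const).continuousOn ?_
    intro l hl
    exact (Kl_posDef K M hK hM l hl).2
  have h3 : (fun l => tp (Dl K M l) X) = fun l =>
      tp (cfc Real.log (Kl K l + M)) X + tp (cfc Real.log (Kl K l - M)) X -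
        Real.log l * (X.trace).re := by
    funext l
    unfold Dl Ll
    rw [tpA_sub_left, tpA_add_left]
    congr 1
    unfold tp
    rw [Matrix.smul_mul, Matrix.one_mul, Matrix.trace_smul, smul_eq_mul, Complex.re_ofReal_mul]
  rw [h3]
  exact (((continuous_tpA_left X).comp_continuousOn h1).add
    ((continuous_tpA_left X).comp_continuousOn h2)).sub (hlog.mul continuousOn_const)

end Vale.LT2
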