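import Mathlib

/-!
# Golden–Thompson inequality in dual form

For positive definite complex matrices `A B Y`:
`tr (Y (log A + log B)) ≤ tr (Y log Y) - tr Y + tr (A B)`.
Proof by the three lines theorem applied to `z ↦ tr (Y^{1-z/2} A^{z/2} B^{z/2})`.
-/

open Matrix Complex Complex.HadamardThreeLines
open scoped ComplexOrder

namespace Vale.H22.GT

variable {n : Type*} [Fintype n] [DecidableEq n]

/-- `U diag(d) U*` where `U` is the eigenvector unitary of the Hermitian matrix `A`. -/
noncomputable def fn {A : Matrix n n ℂ} (hA : A.IsHermitian) (d : n → ℂ) : Matrix n n ℂ :=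
  (hA.eigenvectorUnitary : Matrix n n ℂ) * diagonal d *
    (hA.eigenvectorUnitary : Matrix n n ℂ)ᴴ

section fn

variable {A : Matrix n n ℂ} (hA : A.IsHermitian)

lemma U_star_mul : (hA.eigenvectorUnitary : Matrix n n ℂ)ᴴ *
    (hA.eigenvectorUnitary : Matrix n n ℂ) = 1 := by
  have := Unitary.coe_star_mul_self hA.eigenvectorUnitary
  simpa [star_eq_conjTranspose] using this

lemma U_mul_star : (hA.eigenvectorUnitary : Matrix n n ℂ) *
    (hA.eigenvectorUnitary : Matrix n n ℂ)ᴴ = 1 := by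
  have := Unitary.coe_mul_star_self hA.eigenvectorUnitary
  simpa [star_eq_conjTranspose] using this

lemma fn_mul (d e : n → ℂ) : fn hA d * fn hA e = fn hA (fun i => d i * e i) := by
  unfold fn
  have : (hA.eigenvectorUnitary : Matrix n n ℂ) * diagonal d *
      (hA.eigenvectorUnitary : Matrix n n ℂ)ᴴ *
      ((hA.eigenvectorUnitary : Matrix n n ℂ) * diagonal e *
      (hA.eigenvectorUnitary : Matrix n n ℂ)ᴴ) =
      (hA.eigenvectorUnitary : Matrix n n ℂ) * diagonal d *
      ((hA.eigenvectorUnitary : Matrix n n ℂ)ᴴ *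
      (hA.eigenvectorUnitary : Matrix n n ℂ)) * diagonal e *
      (hA.eigenvectorUnitary : Matrix n n ℂ)ᴴ := by
    simp only [Matrix.mul_assoc]
  rw [this, U_star_mul, Matrix.mul_one, Matrix.mul_assoc (hA.eigenvectorUnitary : Matrix n n ℂ),
    diagonal_mul_diagonal]

lemma fn_one : fn hA (fun _ => 1) = 1 := by
  unfold fn
  rw [diagonal_one, Matrix.mul_one, U_mul_star]

lemma fn_star (d : n → ℂ) : (fn hA d)ᴴ = fn hA (fun i => star (d i)) := by
  unfold fn
  rw [conjTranspose_mul, conjTranspose_mul, conjTranspose_conjTranspose, diagonal_conjTranspose,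
    Matrix.mul_assoc]
  rfl

lemma fn_add (d e : n → ℂ) : fn hA (fun i => d i + e i) = fn hA d + fn hA e := by
  unfold fn
  rw [← diagonal_add, Matrix.mul_add, Matrix.add_mul]

lemma fn_eig : fn hA (fun i => (hA.eigenvalues i : ℂ)) = A := by
  conv_rhs => rw [hA.spectral_theorem]
  rw [Unitary.conjStarAlgAut_apply]
  rfl

lemma fn_cfc (f : ℝ → ℝ) : cfc f A = fn hA (fun i => (f (hA.eigenvalues i) : ℂ)) := by
  rw [hA.cfc_eq, Matrix.IsHermitian.cfc, Unitary.conjStarAlgAut_apply]
  rfl

lemma trace_fn (d : n → ℂ) : (fn hA d).trace = ∑ i, d i := by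
  unfold fn
  rw [Matrix.mul_assoc, Matrix.trace_mul_comm, Matrix.mul_assoc, U_star_mul, Matrix.mul_one,
    trace_diagonal]

end fn

omit [DecidableEq n] in
/-- Cauchy–Schwarz for the trace. -/
lemma norm_trace_mul_le (P Q : Matrix n n ℂ) :
    ‖(P * Q).trace‖ ≤ √((P * Pᴴ).trace.re) * √((Qᴴ * Q).trace.re) := by
  have h1 : (P * Pᴴ).trace.re = ∑ p : n × n, ‖P p.1 p.2‖ ^ 2 := by
    rw [Matrix.trace, Complex.re_sum, Fintype.sum_prod_type]
    refine Finset.sum_congr rfl fun i _ => ?_
    rw [diag_apply, Matrix.mul_apply, Complex.re_sum]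
    refine Finset.sum_congr rfl fun j _ => ?_
    rw [conjTranspose_apply, ← Complex.normSq_eq_norm_sq, RCLike.star_def, Complex.mul_conj,
      Complex.ofReal_re]
  have h2 : (Qᴴ * Q).trace.re = ∑ p : n × n, ‖Q p.2 p.1‖ ^ 2 := by
    rw [Matrix.trace, Complex.re_sum, Fintype.sum_prod_type]
    refine Finset.sum_congr rfl fun i _ => ?_
    rw [diag_apply, Matrix.mul_apply, Complex.re_sum]
    refine Finset.sum_congr rfl fun j _ => ?_
    rw [conjTranspose_apply, ← Complex.normSq_eq_norm_sq, RCLike.star_def, mul_comm,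
      Complex.mul_conj, Complex.ofReal_re]
  have h3 : (P * Q).trace = ∑ p : n × n, P p.1 p.2 * Q p.2 p.1 := by
    rw [Matrix.trace, Fintype.sum_prod_type]
    refine Finset.sum_congr rfl fun i _ => ?_
    rw [diag_apply, Matrix.mul_apply]
  rw [h1, h2, h3]
  calc ‖∑ p : n × n, P p.1 p.2 * Q p.2 p.1‖
      ≤ ∑ p : n × n, ‖P p.1 p.2 * Q p.2 p.1‖ := norm_sum_le _ _
    _ = ∑ p : n × n, ‖P p.1 p.2‖ * ‖Q p.2 p.1‖ := by simp only [norm_mul]
    _ ≤ _ := Real.sum_mul_le_sqrt_mul_sqrt _ _ _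

/-- The trilinear expansion. -/
lemma trace_triple {A B Y : Matrix n n ℂ} (hA : A.IsHermitian) (hB : B.IsHermitian)
    (hY : Y.IsHermitian) (d e f : n → ℂ) :
    (fn hY d * (fn hA e * fn hB f)).trace =
      ∑ i, ∑ j, ∑ k,
        ((hY.eigenvectorUnitary : Matrix n n ℂ)ᴴ * (hA.eigenvectorUnitary : Matrix n n ℂ)) i j *
        ((hA.eigenvectorUnitary : Matrix n n ℂ)ᴴ * (hB.eigenvectorUnitary : Matrix n n ℂ)) j k *
        ((hB.eigenvectorUnitary : Matrix n n ℂ)ᴴ * (hY.eigenvectorUnitary : Matrix n n ℂ)) k i *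
        (d i * e j * f k) := by
  set V := (hY.eigenvectorUnitary : Matrix n n ℂ) with hV
  set U := (hA.eigenvectorUnitary : Matrix n n ℂ) with hU
  set W := (hB.eigenvectorUnitary : Matrix n n ℂ) with hW
  have h : (fn hY d * (fn hA e * fn hB f)).trace =
      ((diagonal d * (Vᴴ * U) * (diagonal e * (Uᴴ * W))) * (diagonal f * (Wᴴ * V))).trace := by
    unfold fn
    rw [← hV, ← hU, ← hW]
    rw [Matrix.mul_assoc V, Matrix.mul_assoc V, Matrix.trace_mul_comm]
    simp only [Matrix.mul_assoc]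
  rw [h, Matrix.trace]
  refine Finset.sum_congr rfl fun i _ => ?_
  rw [diag_apply, Matrix.mul_apply]
  rw [Finset.sum_comm]
  refine Finset.sum_congr rfl fun k _ => ?_
  rw [Matrix.mul_apply, Finset.sum_mul]
  refine Finset.sum_congr rfl fun j _ => ?_
  rw [diagonal_mul, diagonal_mul, diagonal_mul]
  ring

lemma star_mul_self_eq (w : ℂ) : star w * w = ((‖w‖ ^ 2 : ℝ) : ℂ) := by
  rw [← Complex.normSq_eq_norm_sq, RCLike.star_def, mul_comm, Complex.mul_conj]

lemma mul_star_self_eq (w : ℂ) : w * star w = ((‖w‖ ^ 2 : ℝ) : ℂ) := by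
  rw [← Complex.normSq_eq_norm_sq, RCLike.star_def, Complex.mul_conj]

section main

variable {A B Y : Matrix n n ℂ} (hA : A.PosDef) (hB : B.PosDef) (hY : Y.PosDef)

lemma norm_exp_half (w : ℂ) (x : ℝ) (hx : 0 < x) (h : w.re = 1 / 2) :
    ‖Complex.exp (w * (Real.log x : ℂ))‖ ^ 2 = x := by
  rw [Complex.norm_exp, Complex.mul_re, Complex.ofReal_re, Complex.ofReal_im, mul_zero, sub_zero, h,
    ← Real.exp_nat_mul]
  have : ((2 : ℕ) : ℝ) * (1 / 2 * Real.log x) = Real.log x := by push_cast; ring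
  rw [this, Real.exp_log hx]

lemma norm_exp_zero (w : ℂ) (x : ℝ) (h : w.re = 0) :
    ‖Complex.exp (w * (Real.log x : ℂ))‖ ^ 2 = 1 := by
  rw [Complex.norm_exp, Complex.mul_re, Complex.ofReal_re, Complex.ofReal_im, mul_zero, sub_zero, h,
    zero_mul, Real.exp_zero, one_pow]

/-- complex power of a positive definite matrix -/
noncomputable def pw {A : Matrix n n ℂ} (hA : A.PosDef) (w : ℂ) : Matrix n n ℂ :=
  fn hA.isHermitian (fun i => Complex.exp (w * (Real.log (hA.isHermitian.eigenvalues i) : ℂ)))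

lemma pw_star_mul_half (w : ℂ) (h : w.re = 1 / 2) : (pw hA w)ᴴ * pw hA w = A := by
  unfold pw
  rw [fn_star, fn_mul]
  conv_rhs => rw [← fn_eig hA.isHermitian]
  congr 1
  funext i
  rw [star_mul_self_eq, norm_exp_half _ _ (hA.eigenvalues_pos i) h]

lemma pw_mul_star_half (w : ℂ) (h : w.re = 1 / 2) : pw hA w * (pw hA w)ᴴ = A := by
  unfold pw
  rw [fn_star, fn_mul]
  conv_rhs => rw [← fn_eig hA.isHermitian]
  congr 1
  funext i
  rw [mul_star_self_eq, norm_exp_half _ _ (hA.eigenvalues_pos i) h]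

lemma pw_star_mul_zero (w : ℂ) (h : w.re = 0) : (pw hA w)ᴴ * pw hA w = 1 := by
  unfold pw
  rw [fn_star, fn_mul]
  conv_rhs => rw [← fn_one hA.isHermitian]
  congr 1
  funext i
  rw [star_mul_self_eq, norm_exp_zero _ _ h]
  norm_num

lemma pw_mul_star_zero (w : ℂ) (h : w.re = 0) : pw hA w * (pw hA w)ᴴ = 1 := by
  unfold pw
  rw [fn_star, fn_mul]
  conv_rhs => rw [← fn_one hA.isHermitian]
  congr 1
  funext i
  rw [mul_star_self_eq, norm_exp_zero _ _ h]
  norm_num

lemma pw_add (w v : ℂ) : pw hA (w + v) = pw hA w * pw hA v := by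
  unfold pw
  rw [fn_mul]
  congr 1
  funext i
  rw [add_mul, Complex.exp_add]

/-- the interpolating function -/
noncomputable def F (z : ℂ) : ℂ :=
  (pw hY (1 - z / 2) * (pw hA (z / 2) * pw hB (z / 2))).trace

/-- bound on the line `re z = 0` -/
lemma F_zero_line (z : ℂ) (h : z.re = 0) : ‖F hA hB hY z‖ ≤ Y.trace.re := by
  have hz : (1 - z / 2 : ℂ) = (1 / 2 - z / 2) + 1 / 2 := by ring
  have e1 : (1 / 2 - z / 2 : ℂ).re = 1 / 2 := by simp [h]
  have e2 : (1 / 2 : ℂ).re = 1 / 2 := by norm_num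
  have e3 : (z / 2 : ℂ).re = 0 := by simp [h]
  have hYnn : 0 ≤ Y.trace.re := by
    have := hY.posSemidef.trace_nonneg
    exact (Complex.le_def.mp this).1
  unfold F
  rw [hz, pw_add, Matrix.mul_assoc]
  refine (norm_trace_mul_le _ _).trans ?_
  rw [pw_mul_star_half hY _ e1]
  have : ((pw hY (1 / 2) * (pw hA (z / 2) * pw hB (z / 2)))ᴴ *
      (pw hY (1 / 2) * (pw hA (z / 2) * pw hB (z / 2)))).trace = Y.trace := by
    set X := pw hA (z / 2) * pw hB (z / 2) with hX
    have hXX : X * Xᴴ = 1 := by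
      rw [hX, conjTranspose_mul, Matrix.mul_assoc, ← Matrix.mul_assoc (pw hB (z / 2)),
        pw_mul_star_zero hB _ e3, Matrix.one_mul, pw_mul_star_zero hA _ e3]
    rw [conjTranspose_mul, Matrix.mul_assoc, ← Matrix.mul_assoc (pw hY (1/2))ᴴ,
      pw_star_mul_half hY _ e2, Matrix.trace_mul_comm, Matrix.mul_assoc, hXX, Matrix.mul_one]
  rw [this, Real.mul_self_sqrt hYnn]

/-- bound on the line `re z = 1` -/
lemma F_one_line (z : ℂ) (h : z.re = 1) :
    ‖F hA hB hY z‖ ≤ √(Y.trace.re) * √((A * B).trace.re) := by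
  have e1 : (1 - z / 2 : ℂ).re = 1 / 2 := by simp [h]; norm_num
  have e3 : (z / 2 : ℂ).re = 1 / 2 := by simp [h]
  unfold F
  refine (norm_trace_mul_le _ _).trans ?_
  rw [pw_mul_star_half hY _ e1]
  have : ((pw hA (z / 2) * pw hB (z / 2))ᴴ *
      (pw hA (z / 2) * pw hB (z / 2))).trace = (A * B).trace := by
    rw [conjTranspose_mul, Matrix.mul_assoc, ← Matrix.mul_assoc (pw hA (z/2))ᴴ,
      pw_star_mul_half hA _ e3, Matrix.trace_mul_comm, Matrix.mul_assoc,
      pw_mul_star_half hB _ e3]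
  rw [this]

/-- the coefficients of the expansion of `F` -/
noncomputable def coef (i j k : n) : ℂ :=
  ((hY.isHermitian.eigenvectorUnitary : Matrix n n ℂ)ᴴ *
      (hA.isHermitian.eigenvectorUnitary : Matrix n n ℂ)) i j *
  ((hA.isHermitian.eigenvectorUnitary : Matrix n n ℂ)ᴴ *
      (hB.isHermitian.eigenvectorUnitary : Matrix n n ℂ)) j k *
  ((hB.isHermitian.eigenvectorUnitary : Matrix n n ℂ)ᴴ *
      (hY.isHermitian.eigenvectorUnitary : Matrix n n ℂ)) k i

/-- the exponents of the expansion of `F` -/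
noncomputable def lam (i j k : n) : ℝ :=
  (Real.log (hA.isHermitian.eigenvalues j) + Real.log (hB.isHermitian.eigenvalues k)
    - Real.log (hY.isHermitian.eigenvalues i)) / 2

lemma F_eq (z : ℂ) : F hA hB hY z = ∑ i, ∑ j, ∑ k, coef hA hB hY i j k *
    Complex.exp (z * (lam hA hB hY i j k : ℂ) + (Real.log (hY.isHermitian.eigenvalues i) : ℂ)) := by
  unfold F pw
  rw [trace_triple]
  refine Finset.sum_congr rfl fun i _ => Finset.sum_congr rfl fun j _ =>
    Finset.sum_congr rfl fun k _ => ?_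
  unfold coef lam
  rw [← Complex.exp_add, ← Complex.exp_add]
  congr 2
  push_cast
  ring

lemma F_differentiable : Differentiable ℂ (F hA hB hY) := by
  have : F hA hB hY = fun z => ∑ i, ∑ j, ∑ k, coef hA hB hY i j k *
    Complex.exp (z * (lam hA hB hY i j k : ℂ) +
      (Real.log (hY.isHermitian.eigenvalues i) : ℂ)) := funext (F_eq hA hB hY)
  rw [this]
  fun_prop

lemma F_bdd : BddAbove ((norm ∘ F hA hB hY) '' verticalClosedStrip 0 1) := by
  refine ⟨∑ i, ∑ j, ∑ k, ‖coef hA hB hY i j k‖ *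
    Real.exp (|lam hA hB hY i j k| + Real.log (hY.isHermitian.eigenvalues i)), ?_⟩
  rintro _ ⟨z, hz, rfl⟩
  simp only [Function.comp_apply]
  rw [F_eq]
  have hz0 : 0 ≤ z.re := hz.1
  have hz1 : z.re ≤ 1 := hz.2
  refine (norm_sum_le _ _).trans (Finset.sum_le_sum fun i _ => ?_)
  refine (norm_sum_le _ _).trans (Finset.sum_le_sum fun j _ => ?_)
  refine (norm_sum_le _ _).trans (Finset.sum_le_sum fun k _ => ?_)
  rw [norm_mul, Complex.norm_exp]
  refine mul_le_mul_of_nonneg_left (Real.exp_le_exp.mpr ?_) (norm_nonneg _)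
  rw [Complex.add_re, Complex.mul_re, Complex.ofReal_re, Complex.ofReal_im, mul_zero, sub_zero,
    Complex.ofReal_re]
  have : z.re * lam hA hB hY i j k ≤ |lam hA hB hY i j k| := by
    calc z.re * lam hA hB hY i j k ≤ z.re * |lam hA hB hY i j k| :=
          mul_le_mul_of_nonneg_left (le_abs_self _) hz0
      _ ≤ 1 * |lam hA hB hY i j k| := mul_le_mul_of_nonneg_right hz1 (abs_nonneg _)
      _ = _ := one_mul _
  linarith

/-- derivative at zero -/
lemma F_deriv_zero : HasDerivAt (F hA hB hY)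
    (((Y * (cfc Real.log A + cfc Real.log B)).trace - (Y * cfc Real.log Y).trace) / 2) 0 := by
  have h1 : HasDerivAt (F hA hB hY) (∑ i, ∑ j, ∑ k, coef hA hB hY i j k *
    (Complex.exp (0 * (lam hA hB hY i j k : ℂ) +
      (Real.log (hY.isHermitian.eigenvalues i) : ℂ)) * (lam hA hB hY i j k : ℂ))) 0 := by
    have : F hA hB hY = fun z => ∑ i, ∑ j, ∑ k, coef hA hB hY i j k *
      Complex.exp (z * (lam hA hB hY i j k : ℂ) +
        (Real.log (hY.isHermitian.eigenvalues i) : ℂ)) := funext (F_eq hA hB hY)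
    rw [this]
    refine HasDerivAt.fun_sum fun i _ => HasDerivAt.fun_sum fun j _ =>
      HasDerivAt.fun_sum fun k _ => ?_
    refine HasDerivAt.const_mul _ ?_
    refine HasDerivAt.cexp ?_
    simpa using ((hasDerivAt_id (0 : ℂ)).mul_const (lam hA hB hY i j k : ℂ)).add_const
      (Real.log (hY.isHermitian.eigenvalues i) : ℂ)
  convert h1 using 1
  have hYt : ∀ e f : n → ℂ, (Y * (fn hA.isHermitian e * fn hB.isHermitian f)).trace =
      ∑ i, ∑ j, ∑ k, coef hA hB hY i j k *
        ((hY.isHermitian.eigenvalues i : ℂ) * e j * f k) := by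
    intro e f
    have := trace_triple hA.isHermitian hB.isHermitian hY.isHermitian
      (fun i => (hY.isHermitian.eigenvalues i : ℂ)) e f
    rw [fn_eig] at this
    exact this
  have t1 : (Y * cfc Real.log A).trace = ∑ i, ∑ j, ∑ k, coef hA hB hY i j k *
        ((hY.isHermitian.eigenvalues i : ℂ) *
          (Real.log (hA.isHermitian.eigenvalues j) : ℂ) * 1) := by
    rw [← hYt (fun j => (Real.log (hA.isHermitian.eigenvalues j) : ℂ)) (fun _ => 1), fn_one,
      Matrix.mul_one, fn_cfc hA.isHermitian]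
  have t2 : (Y * cfc Real.log B).trace = ∑ i, ∑ j, ∑ k, coef hA hB hY i j k *
        ((hY.isHermitian.eigenvalues i : ℂ) * 1 *
          (Real.log (hB.isHermitian.eigenvalues k) : ℂ)) := by
    rw [← hYt (fun _ => 1) (fun j => (Real.log (hB.isHermitian.eigenvalues j) : ℂ)), fn_one,
      Matrix.one_mul, fn_cfc hB.isHermitian]
  have t3 : (Y * cfc Real.log Y).trace = ∑ i, ∑ j, ∑ k, coef hA hB hY i j k *
        ((hY.isHermitian.eigenvalues i : ℂ) *
          (Real.log (hY.isHermitian.eigenvalues i) : ℂ) * 1 * 1) := by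
    have := trace_triple hA.isHermitian hB.isHermitian hY.isHermitian
      (fun i => (hY.isHermitian.eigenvalues i : ℂ) *
          (Real.log (hY.isHermitian.eigenvalues i) : ℂ)) (fun _ => 1) (fun _ => 1)
    rw [fn_one, fn_one, Matrix.mul_one, Matrix.mul_one] at this
    rw [← fn_mul, fn_eig, ← fn_cfc hY.isHermitian] at this
    rw [this]
    rfl
  rw [Matrix.mul_add, Matrix.trace_add, t1, t2, t3, ← Finset.sum_add_distrib,
    ← Finset.sum_sub_distrib, Finset.sum_div]
  refine Finset.sum_congr rfl fun i _ => ?_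
  rw [← Finset.sum_add_distrib, ← Finset.sum_sub_distrib, Finset.sum_div]
  refine Finset.sum_congr rfl fun j _ => ?_
  rw [← Finset.sum_add_distrib, ← Finset.sum_sub_distrib, Finset.sum_div]
  refine Finset.sum_congr rfl fun k _ => ?_
  rw [zero_mul, zero_add, ← Complex.ofReal_exp, Real.exp_log (hY.eigenvalues_pos i)]
  unfold lam
  push_cast
  ring

lemma F_at_zero : F hA hB hY 0 = Y.trace := by
  unfold F
  have h0 : ∀ {C : Matrix n n ℂ} (hC : C.PosDef), pw hC 0 = 1 := by
    intro C hC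
    unfold pw
    simp only [zero_mul, Complex.exp_zero]
    exact fn_one _
  have h1 : pw hY 1 = Y := by
    unfold pw
    conv_rhs => rw [← fn_eig hY.isHermitian]
    congr 1
    funext i
    rw [one_mul, ← Complex.ofReal_exp, Real.exp_log (hY.eigenvalues_pos i)]
  rw [zero_div, sub_zero, h0 hA, h0 hB, h1, Matrix.mul_one, Matrix.mul_one]

end main

/-- A nonnegative-increment derivative comparison. -/
lemma deriv_nonneg_of_right {φ : ℝ → ℝ} {φ' : ℝ} (h : HasDerivAt φ φ' 0) (h0 : φ 0 = 0)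
    (hpos : ∀ s ∈ Set.Ioc (0:ℝ) 1, 0 ≤ φ s) : 0 ≤ φ' := by
  have h1 : Filter.Tendsto (slope φ 0) (nhdsWithin 0 (Set.Ioi 0)) (nhds φ') := by
    have := hasDerivAt_iff_tendsto_slope.mp h
    refine this.mono_left (nhdsWithin_mono _ ?_)
    intro x hx
    exact ne_of_gt hx
  refine ge_of_tendsto h1 ?_
  have : Set.Ioc (0:ℝ) 1 ∈ nhdsWithin (0:ℝ) (Set.Ioi 0) := Ioc_mem_nhdsGT one_pos
  filter_upwards [this] with s hs
  rw [slope_def_field, h0, sub_zero, sub_zero]
  exact div_nonneg (hpos s hs) hs.1.le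

/-- **Golden–Thompson, dual form.** -/
theorem golden_thompson_dual {A B Y : Matrix n n ℂ} (hA : A.PosDef) (hB : B.PosDef)
    (hY : Y.PosDef) :
    ((Y * (cfc Real.log A + cfc Real.log B)).trace).re ≤
      ((Y * cfc Real.log Y).trace).re - (Y.trace).re + ((A * B).trace).re := by
  rcases isEmpty_or_nonempty n with hn | hn
  · simp [Matrix.trace]
  set T : ℝ := Y.trace.re with hT
  have hTpos : 0 < T := by
    have := hY.trace_pos
    exact (Complex.lt_def.mp this).1
  have hABnn : 0 ≤ (A * B).trace.re := by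
    have e3 : ((1 : ℂ) / 2).re = 1 / 2 := by norm_num
    have h1 : (pw hA (1 / 2) * pw hB (1 / 2))ᴴ *
      (pw hA (1 / 2) * pw hB (1 / 2)) =
      (pw hB (1 / 2))ᴴ * (A * pw hB (1 / 2)) := by
      rw [conjTranspose_mul, Matrix.mul_assoc, ← Matrix.mul_assoc (pw hA (1/2))ᴴ,
        pw_star_mul_half hA _ e3]
    have h2 : ((pw hA (1 / 2) * pw hB (1 / 2))ᴴ *
      (pw hA (1 / 2) * pw hB (1 / 2))).trace = (A * B).trace := by
      rw [h1, Matrix.trace_mul_comm, Matrix.mul_assoc, pw_mul_star_half hB _ e3]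
    rw [← h2]
    have := (Matrix.posSemidef_conjTranspose_mul_self (pw hA (1 / 2) * pw hB (1 / 2))).trace_nonneg
    exact (Complex.le_def.mp this).1
  refine le_of_forall_pos_le_add fun ε hε => ?_
  set S : ℝ := (A * B).trace.re + ε with hS
  have hSpos : 0 < S := by positivity
  set b : ℝ := √T * √S with hb
  have hbpos : 0 < b := mul_pos (Real.sqrt_pos.mpr hTpos) (Real.sqrt_pos.mpr hSpos)
  have hbound : ∀ s ∈ Set.Icc (0:ℝ) 1, (F hA hB hY (s : ℂ)).re ≤ T ^ (1 - s) * b ^ s := by
    intro s hs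
    have h3 := norm_le_interp_of_mem_verticalClosedStrip₀₁' (F hA hB hY) (z := (s : ℂ))
      (a := T) (b := b) (by simpa [verticalClosedStrip] using hs)
      (F_differentiable hA hB hY).diffContOnCl (F_bdd hA hB hY)
      (fun z hz => F_zero_line hA hB hY z hz)
      (fun z hz => (F_one_line hA hB hY z hz).trans
        (mul_le_mul_of_nonneg_left (Real.sqrt_le_sqrt (by rw [hS]; linarith)) (Real.sqrt_nonneg _)))
    rw [Complex.ofReal_re] at h3
    exact (Complex.re_le_norm _).trans h3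
  have hder1 : HasDerivAt (fun s : ℝ => (F hA hB hY (s : ℂ)).re)
      (((Y * (cfc Real.log A + cfc Real.log B)).trace - (Y * cfc Real.log Y).trace) / 2).re 0 := by
    have := F_deriv_zero hA hB hY
    have h4 : HasDerivAt (F hA hB hY)
      (((Y * (cfc Real.log A + cfc Real.log B)).trace - (Y * cfc Real.log Y).trace) / 2)
      ((0 : ℝ) : ℂ) := by simpa using this
    exact h4.real_of_complex
  have hder2 : HasDerivAt (fun s : ℝ => T ^ (1 - s) * b ^ s)
      (T * (Real.log b - Real.log T)) 0 := by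
    have h5 : (fun s : ℝ => T ^ (1 - s) * b ^ s) =
        fun s : ℝ => T * Real.exp (s * (Real.log b - Real.log T)) := by
      funext s
      rw [Real.rpow_def_of_pos hTpos, Real.rpow_def_of_pos hbpos]
      conv_rhs => rw [← Real.exp_log hTpos]
      rw [Real.log_exp, ← Real.exp_add, ← Real.exp_add]
      congr 1
      ring
    rw [h5]
    have h6 : HasDerivAt (fun s : ℝ => s * (Real.log b - Real.log T))
        (1 * (Real.log b - Real.log T)) 0 := (hasDerivAt_id 0).mul_const _
    have h7 := (h6.exp).const_mul T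
    have h7' : T * (Real.exp (0 * (Real.log b - Real.log T)) * (1 * (Real.log b - Real.log T))) =
        T * (Real.log b - Real.log T) := by
      rw [zero_mul, Real.exp_zero]
      ring
    rw [h7'] at h7
    exact h7
  have hfin := deriv_nonneg_of_right (hder2.sub hder1) (by
      simp only [Pi.sub_apply]
      have := F_at_zero hA hB hY
      simp only [Complex.ofReal_zero, this, sub_zero, Real.rpow_one, Real.rpow_zero, mul_one]
      rw [hT, sub_self]) (by
      intro s hs
      simp only [Pi.sub_apply]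
      have := hbound s ⟨hs.1.le, hs.2⟩
      linarith)
  have hlog : T * (Real.log b - Real.log T) ≤ (S - T) / 2 := by
    have h8 : Real.log b = (Real.log T + Real.log S) / 2 := by
      rw [hb, Real.log_mul (Real.sqrt_pos.mpr hTpos).ne' (Real.sqrt_pos.mpr hSpos).ne',
        Real.log_sqrt hTpos.le, Real.log_sqrt hSpos.le]
      ring
    rw [h8]
    have h9 : Real.log (S / T) ≤ S / T - 1 := Real.log_le_sub_one_of_pos (div_pos hSpos hTpos)
    rw [Real.log_div hSpos.ne' hTpos.ne'] at h9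
    have h10 : T * (Real.log S - Real.log T) ≤ T * (S / T - 1) :=
      mul_le_mul_of_nonneg_left h9 hTpos.le
    have h11 : T * (S / T - 1) = S - T := by field_simp
    rw [h11] at h10
    linarith
  have hre : (((Y * (cfc Real.log A + cfc Real.log B)).trace - (Y * cfc Real.log Y).trace) / 2).re
      = (((Y * (cfc Real.log A + cfc Real.log B)).trace).re -
        ((Y * cfc Real.log Y).trace).re) / 2 := by
    rw [show ((2 : ℂ)) = ((2 : ℝ) : ℂ) by norm_num, Complex.div_ofReal_re, Complex.sub_re]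
  rw [hre] at hfin
  rw [hS] at hlog
  linarith

end Vale.H22.GT
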