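import Vale.Agent.H22.GoldenThompson
import Vale.Agent.H1.LT2.Defs

/-!
Row GT.
-/

open MeasureTheory Matrix Set
open scoped ENNReal ComplexOrder

namespace Vale.LT2

variable {N : ℕ}

theorem gt_dual (A B Y : Mat N) (hA : A.PosDef) (hB : B.PosDef) (hY : Y.PosDef) :
    tp Y (cfc Real.log A + cfc Real.log B)
      ≤ tp Y (cfc Real.log Y) - (Y.trace).re + tp A B :=
  Vale.H22.GT.golden_thompson_dual hA hB hY

end Vale.LT2
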