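import Mathlib

/-!
P034, row C: change of measure for labelled fragments, and the numerical series bound.
-/

namespace Vale.Agent.H22.P034

open Finset

variable {α : Type*} [Fintype α] [DecidableEq α] {n : ℕ}

/-- The new labels: `τ x = some i` overrides the label of `x` by `i`. -/
def upd (l : α → Fin n) (τ : α → Option (Fin n)) : α → Fin n := fun x => (τ x).getD (l x)

/-- Number of elements relabelled `i`. -/
def cnt (τ : α → Option (Fin n)) (i : Fin n) : ℕ := (univ.filter fun x => τ x = some i).card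

/-- Number of relabelled elements. -/
def siz (τ : α → Option (Fin n)) : ℕ := (univ.filter fun x => (τ x).isSome).card

theorem fiber_le (p : Fin n → ℝ) (hp : ∀ i, 0 ≤ p i) (hsum : ∑ i, p i ≤ 1)
    (τ : α → Option (Fin n)) (l' : α → Fin n) :
    ∑ l with upd l τ = l', ∏ x, p (l x) ≤ ∏ x, (if τ x = none then p (l' x) else 1) := by
  classical
  set t : α → Finset (Fin n) := fun x => if τ x = none then {l' x} else univ with ht
  have hsub : (univ.filter fun l : α → Fin n => upd l τ = l') ⊆ Fintype.piFinset t := by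
    intro l hl
    rw [mem_filter] at hl
    rw [Fintype.mem_piFinset]
    intro x
    rw [ht]
    by_cases hx : τ x = none
    · simp only [hx, if_true, mem_singleton]
      have := congrFun hl.2 x
      simp only [upd, hx, Option.getD_none] at this
      exact this
    · simp [hx]
  calc ∑ l with upd l τ = l', ∏ x, p (l x) ≤ ∑ l ∈ Fintype.piFinset t, ∏ x, p (l x) := by
        apply sum_le_sum_of_subset_of_nonneg hsub
        intro l _ _
        exact prod_nonneg fun x _ => hp _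
    _ = ∏ x, ∑ i ∈ t x, p i := (prod_univ_sum t (fun _ i => p i)).symm
    _ ≤ ∏ x, (if τ x = none then p (l' x) else 1) := by
        apply prod_le_prod
        · intro x _
          exact sum_nonneg fun i _ => hp i
        · intro x _
          rw [ht]
          by_cases hx : τ x = none
          · simp [hx]
          · simp only [hx, if_false]
            exact hsum

theorem prod_cnt (a : Fin n → ℝ) (τ : α → Option (Fin n)) :
    ∏ i, a i ^ cnt τ i = ∏ x, (match τ x with | none => 1 | some i => a i) := by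
  classical
  have h1 : ∀ i, a i ^ cnt τ i = ∏ x, (if τ x = some i then a i else 1) := by
    intro i
    rw [prod_ite]
    simp [cnt]
  simp_rw [h1]
  rw [prod_comm]
  apply prod_congr rfl
  intro x _
  rcases hx : τ x with _ | j
  · simp
  · simp only [Option.some.injEq]
    rw [prod_ite_eq]
    simp

theorem q_siz (q : ℝ) (τ : α → Option (Fin n)) :
    q ^ siz τ = ∏ x, (if τ x = none then 1 else q) := by
  classical
  rw [prod_ite]
  simp only [prod_const_one, one_mul, prod_const, siz]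
  congr 1
  apply congrArg
  ext x
  simp only [mem_filter, mem_univ, true_and]
  rw [Option.isSome_iff_ne_none]

theorem point_le (p a : Fin n → ℝ) (hp : ∀ i, 0 ≤ p i) {q : ℝ} (hq : 0 ≤ q)
    (τ : α → Option (Fin n)) (l l' : α → Fin n) (hl : upd l τ = l')
    (hR : ∀ x i, τ x = some i → q ≤ a i * p i) :
    q ^ siz τ * ∏ x, (if τ x = none then p (l' x) else 1)
      ≤ (∏ i, a i ^ cnt τ i) * ∏ x, p (l' x) := by
  classical
  rw [q_siz, prod_cnt, ← prod_mul_distrib, ← prod_mul_distrib]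
  apply prod_le_prod
  · intro x _
    by_cases hx : τ x = none
    · simp [hx, hp]
    · simp [hx, hq]
  · intro x _
    rcases hx : τ x with _ | i
    · simp
    · simp only [reduceCtorEq, if_false, mul_one]
      have : l' x = i := by
        rw [← hl]
        simp [upd, hx]
      rw [this]
      exact hR x i hx

theorem total_le (p : Fin n → ℝ) (hp : ∀ i, 0 ≤ p i) (hsum : ∑ i, p i ≤ 1) :
    ∑ l : α → Fin n, ∏ x, p (l x) ≤ 1 := by
  classical
  have h := prod_univ_sum (fun _ : α => (univ : Finset (Fin n))) (fun _ i => p i)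
  rw [Fintype.piFinset_univ] at h
  rw [← h]
  apply prod_le_one
  · intro x _
    exact sum_nonneg fun i _ => hp i
  · intro x _
    exact hsum

/-- **Change of measure.**  `R l τ` : the labelled fragment `τ` arises from the labelling `l`.
If for every new labelling `l'` and count vector `k` at most `Bd k` fragments with counts `k`
arise, then the expected cost of all fragments is at most `∑ k, (∏ a_i^{k_i}) Bd k`. -/
theorem change_of_measure (p a : Fin n → ℝ) (hp : ∀ i, 0 ≤ p i) (hsum : ∑ i, p i ≤ 1)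
    (ha : ∀ i, 0 ≤ a i) {q : ℝ} (hq : 0 ≤ q)
    (R : (α → Fin n) → (α → Option (Fin n)) → Prop) [∀ l, DecidablePred (R l)]
    (hR : ∀ l τ, R l τ → ∀ x i, τ x = some i → q ≤ a i * p i)
    (Bd : (Fin n → ℕ) → ℝ) (hBd0 : ∀ k, 0 ≤ Bd k)
    (hBd : ∀ (l' : α → Fin n) (k : Fin n → ℕ) (S : Finset (α → Option (Fin n))),
      (∀ τ ∈ S, cnt τ = k ∧ ∃ l, R l τ ∧ upd l τ = l') → (S.card : ℝ) ≤ Bd k) :
    ∑ l, (∏ x, p (l x)) * ∑ τ with R l τ, q ^ siz τ
      ≤ ∑ k ∈ Fintype.piFinset (fun _ : Fin n => range (Fintype.card α + 1)),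
          (∏ i, a i ^ k i) * Bd k := by
  classical
  set box := Fintype.piFinset (fun _ : Fin n => range (Fintype.card α + 1)) with hbox
  have hcnt : ∀ τ : α → Option (Fin n), cnt τ ∈ box := by
    intro τ
    rw [hbox, Fintype.mem_piFinset]
    intro i
    rw [mem_range]
    have : cnt τ i ≤ Fintype.card α := by
      unfold cnt
      exact card_le_univ _
    omega
  have hP : ∀ l : α → Fin n, 0 ≤ ∏ x, p (l x) := fun l => prod_nonneg fun x _ => hp _
  have hA : ∀ k : Fin n → ℕ, 0 ≤ ∏ i, a i ^ k i := fun k => prod_nonneg fun i _ => pow_nonneg (ha i) _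
  -- swap sums
  have e1 : ∑ l, (∏ x, p (l x)) * ∑ τ with R l τ, q ^ siz τ
      = ∑ τ : α → Option (Fin n), ∑ l with R l τ, (∏ x, p (l x)) * q ^ siz τ := by
    simp_rw [mul_sum, sum_filter]
    rw [sum_comm]
  -- group by the new labelling
  have e2 : ∀ τ : α → Option (Fin n), ∑ l with R l τ, (∏ x, p (l x)) * q ^ siz τ
      ≤ ∑ l' with ∃ l, R l τ ∧ upd l τ = l', (∏ i, a i ^ cnt τ i) * ∏ x, p (l' x) := by
    intro τ
    have hmap : ∀ l ∈ univ.filter (fun l => R l τ), upd l τ ∈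
        univ.filter (fun l' => ∃ l, R l τ ∧ upd l τ = l') := by
      intro l hl
      rw [mem_filter] at hl ⊢
      exact ⟨mem_univ _, l, hl.2, rfl⟩
    rw [← sum_fiberwise_of_maps_to hmap]
    apply sum_le_sum
    intro l' hl'
    rw [mem_filter] at hl'
    obtain ⟨_, l0, hl0, hl0'⟩ := hl'
    calc ∑ l ∈ (univ.filter (fun l => R l τ)) with upd l τ = l', (∏ x, p (l x)) * q ^ siz τ
        ≤ ∑ l with upd l τ = l', (∏ x, p (l x)) * q ^ siz τ := by
          apply sum_le_sum_of_subset_of_nonneg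
          · intro l hl
            rw [mem_filter] at hl ⊢
            exact ⟨mem_univ _, hl.2⟩
          · intro l _ _
            exact mul_nonneg (hP l) (pow_nonneg hq _)
      _ = q ^ siz τ * ∑ l with upd l τ = l', ∏ x, p (l x) := by
          rw [← sum_mul, mul_comm]
      _ ≤ q ^ siz τ * ∏ x, (if τ x = none then p (l' x) else 1) :=
          mul_le_mul_of_nonneg_left (fiber_le p hp hsum τ l') (pow_nonneg hq _)
      _ ≤ (∏ i, a i ^ cnt τ i) * ∏ x, p (l' x) :=
          point_le p a hp hq τ l0 l' hl0' (hR l0 τ hl0)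
  calc ∑ l, (∏ x, p (l x)) * ∑ τ with R l τ, q ^ siz τ
      = ∑ τ : α → Option (Fin n), ∑ l with R l τ, (∏ x, p (l x)) * q ^ siz τ := e1
    _ ≤ ∑ τ : α → Option (Fin n), ∑ l' with ∃ l, R l τ ∧ upd l τ = l',
          (∏ i, a i ^ cnt τ i) * ∏ x, p (l' x) := sum_le_sum fun τ _ => e2 τ
    _ = ∑ l' : α → Fin n, ∑ τ with ∃ l, R l τ ∧ upd l τ = l',
          (∏ i, a i ^ cnt τ i) * ∏ x, p (l' x) := by
        simp_rw [sum_filter]
        rw [sum_comm]
    _ ≤ ∑ l' : α → Fin n, (∏ x, p (l' x)) * ∑ k ∈ box, (∏ i, a i ^ k i) * Bd k := by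
        apply sum_le_sum
        intro l' _
        rw [← sum_mul, mul_comm]
        apply mul_le_mul_of_nonneg_left _ (hP l')
        rw [← sum_fiberwise_of_maps_to (g := fun τ => cnt τ) (t := box) (fun τ _ => hcnt τ)]
        apply sum_le_sum
        intro k _
        have h1 : ∑ τ ∈ (univ.filter (fun τ => ∃ l, R l τ ∧ upd l τ = l')) with cnt τ = k,
            ∏ i, a i ^ cnt τ i
            = ∑ τ ∈ (univ.filter (fun τ => ∃ l, R l τ ∧ upd l τ = l')) with cnt τ = k,
              ∏ i, a i ^ k i := by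
          apply sum_congr rfl
          intro τ hτ
          rw [mem_filter] at hτ
          rw [hτ.2]
        rw [h1, sum_const, nsmul_eq_mul, mul_comm]
        apply mul_le_mul_of_nonneg_left _ (hA k)
        apply hBd l' k
        intro τ hτ
        rw [mem_filter, mem_filter] at hτ
        exact ⟨hτ.2, hτ.1.2⟩
    _ ≤ ∑ k ∈ box, (∏ i, a i ^ k i) * Bd k := by
        rw [← sum_mul]
        have h0 : 0 ≤ ∑ k ∈ box, (∏ i, a i ^ k i) * Bd k :=
          sum_nonneg fun k _ => mul_nonneg (hA k) (hBd0 k)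
        exact mul_le_of_le_one_left h0 (total_le p hp hsum)

/-! ### The series -/

theorem choose_le (N k : ℕ) {x : ℝ} (hx : 0 < x) :
    (N.choose k : ℝ) ≤ (x⁻¹) ^ k * Real.exp (N * x) := by
  rcases le_or_gt k N with hk | hk
  · have h1 : (N.choose k : ℝ) * x ^ k ≤ (x + 1) ^ N := by
      rw [add_pow]
      have := single_le_sum (f := fun m => x ^ m * (1:ℝ) ^ (N - m) * (N.choose m : ℝ))
        (s := range (N + 1)) (fun m _ => by positivity) (mem_range.2 (Nat.lt_succ_of_le hk))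
      simp only [one_pow, mul_one] at this ⊢
      linarith [mul_comm (x ^ k) (N.choose k : ℝ)]
    have h2 : (x + 1) ^ N ≤ Real.exp (N * x) := by
      rw [Real.exp_nat_mul]
      exact pow_le_pow_left₀ (by positivity) (Real.add_one_le_exp x) N
    have h3 : (N.choose k : ℝ) = (x⁻¹) ^ k * ((N.choose k : ℝ) * x ^ k) := by
      rw [inv_pow]
      field_simp
    rw [h3]
    exact mul_le_mul_of_nonneg_left (h1.trans h2) (by positivity)
  · rw [Nat.choose_eq_zero_of_lt hk]
    push_cast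
    positivity

/-- partial sums `S_i = k_0 + … + k_i`. -/
def ps (k : Fin n → ℕ) (i : Fin n) : ℕ := ∑ j with j ≤ i, k j

theorem half_sum (n : ℕ) : ∑ i : Fin n, ((2:ℝ)⁻¹) ^ (i.val + 1) ≤ 1 := by
  rw [Fin.sum_univ_eq_sum_range (fun i => ((2:ℝ)⁻¹) ^ (i + 1)) n]
  have : ∀ n : ℕ, ∑ i ∈ range n, ((2:ℝ)⁻¹) ^ (i + 1) = 1 - (2⁻¹) ^ n := by
    intro n
    induction n with
    | zero => simp
    | succ m ih => rw [sum_range_succ, ih, pow_succ]; ring
  rw [this]
  have : (0:ℝ) ≤ (2⁻¹) ^ n := by positivity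
  linarith

theorem ps_sum_le (k : Fin n → ℕ) :
    ∑ i : Fin n, (ps k i : ℝ) * ((2:ℝ)⁻¹) ^ (i.val + 1) ≤ ∑ j, (k j : ℝ) := by
  have h1 : ∀ i : Fin n, (ps k i : ℝ) ≤ ∑ j, (k j : ℝ) := by
    intro i
    unfold ps
    push_cast
    exact sum_le_sum_of_subset_of_nonneg (filter_subset _ _) fun j _ _ => by positivity
  calc ∑ i : Fin n, (ps k i : ℝ) * ((2:ℝ)⁻¹) ^ (i.val + 1)
      ≤ ∑ i : Fin n, (∑ j, (k j : ℝ)) * ((2:ℝ)⁻¹) ^ (i.val + 1) :=
        sum_le_sum fun i _ => mul_le_mul_of_nonneg_right (h1 i) (by positivity)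
    _ = (∑ j, (k j : ℝ)) * ∑ i : Fin n, ((2:ℝ)⁻¹) ^ (i.val + 1) := by rw [mul_sum]
    _ ≤ (∑ j, (k j : ℝ)) * 1 :=
        mul_le_mul_of_nonneg_left (half_sum n) (sum_nonneg fun j _ => by positivity)
    _ = ∑ j, (k j : ℝ) := mul_one _

/-- One term of the series. -/
theorem term_le (a ε : Fin n → ℝ) (ha : ∀ i, 0 ≤ a i) (hε : ∀ i, 0 < ε i) (k : Fin n → ℕ)
    (N : Fin n → ℕ) (hN : ∀ i, (N i : ℝ) * ε i ≤ ps k i) :
    (∏ i, a i ^ k i) * ∏ i, ((N i).choose (k i) : ℝ)
      ≤ ∏ i, (Real.exp 1 * 2 ^ (i.val + 1) * a i / ε i) ^ k i := by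
  have h1 : ∀ i : Fin n, ((N i).choose (k i) : ℝ) ≤ (2 ^ (i.val + 1) / ε i) ^ k i *
      Real.exp ((ps k i : ℝ) * ((2:ℝ)⁻¹) ^ (i.val + 1)) := by
    intro i
    have hx : 0 < ε i * ((2:ℝ)⁻¹) ^ (i.val + 1) := by have := hε i; positivity
    refine (choose_le (N i) (k i) hx).trans ?_
    have e : (ε i * ((2:ℝ)⁻¹) ^ (i.val + 1))⁻¹ = 2 ^ (i.val + 1) / ε i := by
      rw [mul_inv, inv_pow, inv_inv]
      field_simp
    rw [e]
    have := hε i
    apply mul_le_mul_of_nonneg_left _ (by positivity)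
    apply Real.exp_le_exp.2
    rw [← mul_assoc]
    exact mul_le_mul_of_nonneg_right (hN i) (by positivity)
  calc (∏ i, a i ^ k i) * ∏ i, ((N i).choose (k i) : ℝ)
      ≤ (∏ i, a i ^ k i) * ∏ i, ((2 ^ (i.val + 1) / ε i) ^ k i *
          Real.exp ((ps k i : ℝ) * ((2:ℝ)⁻¹) ^ (i.val + 1))) := by
        apply mul_le_mul_of_nonneg_left _ (prod_nonneg fun i _ => pow_nonneg (ha i) _)
        exact prod_le_prod (fun i _ => by positivity) fun i _ => h1 i
    _ = (∏ i, a i ^ k i) * (∏ i, (2 ^ (i.val + 1) / ε i) ^ k i) *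
          Real.exp (∑ i : Fin n, (ps k i : ℝ) * ((2:ℝ)⁻¹) ^ (i.val + 1)) := by
        rw [prod_mul_distrib, Real.exp_sum]
        ring
    _ ≤ (∏ i, a i ^ k i) * (∏ i, (2 ^ (i.val + 1) / ε i) ^ k i) *
          Real.exp (∑ j, (k j : ℝ)) := by
        apply mul_le_mul_of_nonneg_left
        · exact Real.exp_le_exp.2 (ps_sum_le k)
        · apply mul_nonneg (prod_nonneg fun i _ => pow_nonneg (ha i) _)
          exact prod_nonneg fun i _ => by have := hε i; positivity
    _ = ∏ i, (Real.exp 1 * 2 ^ (i.val + 1) * a i / ε i) ^ k i := by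
        rw [Real.exp_sum, ← prod_mul_distrib, ← prod_mul_distrib]
        apply prod_congr rfl
        intro i _
        have : Real.exp (k i : ℝ) = Real.exp 1 ^ k i := by
          rw [← Real.exp_nat_mul, mul_one]
        rw [this, ← mul_pow, ← mul_pow]
        congr 1
        ring

/-- The box sum of the majorant. -/
theorem box_sum_le (ρ : Fin n → ℝ) (h0 : ∀ i, 0 ≤ ρ i) (h1 : ∀ i, ρ i < 1) (m : ℕ) :
    ∑ k ∈ (Fintype.piFinset (fun _ : Fin n => range m)), ∏ i, ρ i ^ k i
      ≤ ∏ i, (1 - ρ i)⁻¹ := by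
  rw [← prod_univ_sum (fun _ : Fin n => range m) (fun i j => ρ i ^ j)]
  apply prod_le_prod
  · intro i _
    exact sum_nonneg fun j _ => pow_nonneg (h0 i) _
  · intro i _
    have hs := (summable_geometric_of_lt_one (h0 i) (h1 i))
    rw [← tsum_geometric_of_lt_one (h0 i) (h1 i)]
    exact hs.sum_le_tsum (range m) (fun j _ => pow_nonneg (h0 i) _)

/-- **The series bound.** -/
theorem series_le (a ε : Fin n → ℝ) (ha : ∀ i, 0 ≤ a i) (hε : ∀ i, 0 < ε i)
    (hρ : ∀ i, Real.exp 1 * 2 ^ (i.val + 1) * a i / ε i < 1) (m : ℕ) (Bd : (Fin n → ℕ) → ℝ)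
    (hB0 : Bd 0 ≤ 0)
    (hB : ∀ k, k ≠ 0 → Bd k ≤ ∏ i, (((⌊(ps k i : ℝ) / ε i⌋₊).choose (k i) : ℕ) : ℝ)) :
    ∑ k ∈ Fintype.piFinset (fun _ : Fin n => range (m + 1)), (∏ i, a i ^ k i) * Bd k
      ≤ ∏ i, (1 - Real.exp 1 * 2 ^ (i.val + 1) * a i / ε i)⁻¹ - 1 := by
  classical
  set ρ : Fin n → ℝ := fun i => Real.exp 1 * 2 ^ (i.val + 1) * a i / ε i with hρd
  have h0 : ∀ i, 0 ≤ ρ i := fun i => by
    have := hε i
    have := ha i
    rw [hρd]
    positivity
  have hb := box_sum_le ρ h0 hρ (m + 1)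
  have hz : (0 : Fin n → ℕ) ∈ Fintype.piFinset (fun _ : Fin n => range (m + 1)) := by
    rw [Fintype.mem_piFinset]
    intro i
    simp
  rw [← add_sum_erase _ _ hz] at hb ⊢
  have hz1 : ∏ i, ρ i ^ (0 : Fin n → ℕ) i = 1 := by simp
  rw [hz1] at hb
  have hz2 : (∏ i, a i ^ (0 : Fin n → ℕ) i) * Bd 0 ≤ 0 := by simpa using hB0
  have hrest : ∑ k ∈ (Fintype.piFinset (fun _ : Fin n => range (m + 1))).erase 0,
      (∏ i, a i ^ k i) * Bd k ≤ ∑ k ∈ (Fintype.piFinset (fun _ : Fin n => range (m + 1))).erase 0,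
      ∏ i, ρ i ^ k i := by
    apply sum_le_sum
    intro k hk
    rw [mem_erase] at hk
    refine le_trans (mul_le_mul_of_nonneg_left (hB k hk.1)
      (prod_nonneg fun i _ => pow_nonneg (ha i) _)) ?_
    apply term_le a ε ha hε k
    intro i
    have := Nat.floor_le (a := (ps k i : ℝ) / ε i) (by have := hε i; positivity)
    calc (⌊(ps k i : ℝ) / ε i⌋₊ : ℝ) * ε i ≤ (ps k i : ℝ) / ε i * ε i :=
          mul_le_mul_of_nonneg_right this (hε i).le
      _ = ps k i := div_mul_cancel₀ _ (hε i).ne'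
  linarith

end Vale.Agent.H22.P034
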